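import Mathlib

namespace Vale.Agent.P279

open Polynomial Finset

theorem core_poly_sum {ι : Type*} (J : Finset ι) (t w : ι → ℂ) (n : ℕ)
    (h : ∀ b < n, ∑ j ∈ J, t j ^ b * w j = 0) (P : ℂ[X]) (hP : P.natDegree < n) :
    ∑ j ∈ J, P.eval (t j) * w j = 0 := by
  simp only [eval_eq_sum_range' hP, sum_mul]
  rw [sum_comm]
  refine sum_eq_zero fun b hb => ?_
  simp only [mul_assoc]
  rw [← mul_sum, h b (mem_range.mp hb), mul_zero]

theorem core_vander (J : Finset ℕ) (w : ℕ → ℂ) (n : ℕ) (hJ : J.card ≤ n)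
    (h : ∀ b < n, ∑ j ∈ J, (j : ℂ) ^ b * w j = 0) : ∀ j ∈ J, w j = 0 := by
  intro j0 hj0
  have hdeg : (∏ i ∈ J.erase j0, (X - C (i : ℂ))).natDegree < n := by
    rw [natDegree_prod_of_monic _ _ fun i _ => monic_X_sub_C _]
    simp only [natDegree_X_sub_C, sum_const, smul_eq_mul, mul_one, card_erase_of_mem hj0]
    have := card_pos.mpr ⟨j0, hj0⟩
    omega
  have h1 := core_poly_sum J (fun j => (j : ℂ)) w n h _ hdeg
  rw [sum_eq_single j0] at h1
  · refine (mul_eq_zero.mp h1).resolve_left ?_
    rw [eval_prod]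
    refine prod_ne_zero_iff.mpr fun i hi => ?_
    simp only [eval_sub, eval_X, eval_C]
    exact sub_ne_zero.mpr fun e => (mem_erase.mp hi).1 (Nat.cast_injective e).symm
  · intro j hj hne
    rw [eval_prod, prod_eq_zero (mem_erase.mpr ⟨hne, hj⟩) (by simp), zero_mul]
  · intro h'; exact absurd hj0 h'

theorem core_hermite {r : ℕ} (x : Fin r → ℂ) (hx : Function.Injective x) (hx0 : ∀ i, x i ≠ 0)
    (μ : Fin r → ℕ) (c : ℤ →₀ ℂ) (L : ℤ)
    (hsupp : ∀ k, c k ≠ 0 → L ≤ k ∧ k < L + (∑ i, μ i : ℕ))
    (h : ∀ i, ∀ a < μ i, c.sum (fun k c => c * (k : ℂ) ^ a * x i ^ k) = 0) : c = 0 := by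
  classical
  by_contra hc
  set H : ℂ[X] := ∑ k ∈ c.support, C (c k) * X ^ (k - L).toNat with hH
  obtain ⟨k0, hk0⟩ := Finsupp.support_nonempty_iff.mpr hc
  have hs : ∀ k ∈ c.support, L ≤ k ∧ k < L + (∑ i, μ i : ℕ) := fun k hk =>
    hsupp k (Finsupp.mem_support_iff.mp hk)
  have hH0 : H ≠ 0 := by
    intro e
    have h1 : H.coeff (k0 - L).toNat = c k0 := by
      rw [hH, finset_sum_coeff, sum_eq_single k0]
      · simp
      · intro k hk hne
        rw [coeff_C_mul_X_pow, if_neg]
        have := hs k hk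
        have := hs k0 hk0
        omega
      · intro h'; exact absurd hk0 h'
    rw [e, coeff_zero] at h1
    exact Finsupp.mem_support_iff.mp hk0 h1.symm
  have hdeg : H.natDegree < ∑ i, μ i := by
    have h1 : H.natDegree ≤ ∑ i, μ i - 1 := by
      refine natDegree_sum_le_of_forall_le _ _ fun k hk => (natDegree_C_mul_X_pow_le _ _).trans ?_
      have := hs k hk
      omega
    have := hs k0 hk0
    omega
  have hmul : ∀ i, μ i ≤ H.rootMultiplicity (x i) := by
    intro i
    rcases Nat.eq_zero_or_pos (μ i) with h0 | h0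
    · omega
    have : μ i - 1 < H.rootMultiplicity (x i) := by
      rw [lt_rootMultiplicity_iff_isRoot_iterate_derivative hH0]
      intro a ha
      have hQ : ((descPochhammer ℂ a).comp (X - C (L : ℂ))).natDegree < μ i := by
        refine lt_of_le_of_lt natDegree_comp_le ?_
        rw [natDegree_X_sub_C, descPochhammer_natDegree]
        omega
      have h1 := core_poly_sum c.support (fun k => (k : ℂ)) (fun k => c k * x i ^ k) (μ i)
        (fun b hb => by
          rw [← h i b hb, Finsupp.sum]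
          exact sum_congr rfl fun k _ => by ring) _ hQ
      have h2 : x i ^ a * x i ^ L ≠ 0 := mul_ne_zero (pow_ne_zero _ (hx0 i)) (zpow_ne_zero _ (hx0 i))
      rw [IsRoot.def]
      apply mul_left_cancel₀ h2
      rw [mul_zero, ← h1, hH, iterate_derivative_sum, eval_finset_sum, mul_sum]
      refine sum_congr rfl fun k hk => ?_
      obtain ⟨n, hn⟩ : ∃ n : ℕ, k = L + n := ⟨(k - L).toNat, by have := hs k hk; omega⟩
      have e1 : (k - L).toNat = n := by omega
      have e2 : (k : ℂ) - L = (n : ℂ) := by rw [hn]; push_cast; ring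
      rw [e1, iterate_derivative_C_mul, iterate_derivative_X_pow_eq_natCast_mul]
      simp only [eval_mul, eval_C, eval_natCast, eval_pow, eval_X, eval_comp, eval_sub, e2,
        descPochhammer_eval_eq_descFactorial]
      rcases lt_or_ge n a with h3 | h3
      · rw [Nat.descFactorial_eq_zero_iff_lt.mpr h3]; simp
      · have e3 : x i ^ k = x i ^ L * (x i ^ a * x i ^ (n - a)) := by
          rw [hn, zpow_add₀ (hx0 i), zpow_natCast, ← pow_add, Nat.add_sub_cancel' h3]
        rw [e3]; ring
    omega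
  have h1 : ∑ i, μ i ≤ ∑ y ∈ univ.image x, H.roots.count y := by
    rw [sum_image fun a _ b _ e => hx e]
    exact sum_le_sum fun i _ => by rw [count_roots]; exact hmul i
  have h2 : ∑ y ∈ univ.image x, H.roots.count y ≤
      ∑ y ∈ univ.image x ∪ H.roots.toFinset, H.roots.count y :=
    sum_le_sum_of_subset subset_union_left
  rw [Multiset.sum_count_eq_card fun a ha => mem_union_right _ (Multiset.mem_toFinset.mpr ha)] at h2
  have h3 := H.card_roots'
  omega

theorem core_rat (be : ℝ) (hbe : 3 < be) (d : ℕ) : ∃ p q : ℕ, 0 < q ∧ 0 < p ∧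
    (p : ℝ) / q + 3 < be ∧ ∀ ka ≤ d, (⌈(ka : ℝ) * (be - 3) * be⌉ : ℝ) - 1 <
      ka * ((p : ℝ) / q) * ((p : ℝ) / q + 3) := by
  have h1 : ∀ᶠ t in nhds (be - 3), 0 < t ∧ ∀ ka ∈ range (d + 1),
      (⌈(ka : ℝ) * (be - 3) * be⌉ : ℝ) - 1 < ka * t * (t + 3) := by
    refine (lt_mem_nhds (by linarith)).and ((Filter.eventually_all_finset _).mpr fun ka _ => ?_)
    have hc : Continuous fun t : ℝ => (ka : ℝ) * t * (t + 3) := by fun_prop
    refine hc.continuousAt.eventually (lt_mem_nhds ?_)
    have := Int.ceil_lt_add_one ((ka : ℝ) * (be - 3) * be)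
    simp only [sub_add_cancel]
    linarith
  obtain ⟨ε, hε, h2⟩ := Metric.eventually_nhds_iff.mp h1
  obtain ⟨t, ht1, ht2⟩ := exists_rat_btwn (show be - 3 - ε < be - 3 by linarith)
  obtain ⟨h3, h4⟩ := h2 (y := t) (by rw [Real.dist_eq, abs_lt]; constructor <;> linarith)
  have h5 : 0 < t := by exact_mod_cast h3
  have h6 : 0 < t.num := Rat.num_pos.mpr h5
  have h7 : ((t.num.toNat : ℕ) : ℝ) / (t.den : ℝ) = t := by
    have : ((t.num.toNat : ℕ) : ℝ) = (t.num : ℝ) := by
      rw [← Int.cast_natCast, Int.toNat_of_nonneg h6.le]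
    rw [this, ← Rat.cast_def]
  refine ⟨t.num.toNat, t.den, t.pos, by omega, by rw [h7]; linarith, fun ka hka => ?_⟩
  rw [h7]
  exact h4 ka (mem_range.mpr (by omega))

theorem core (r d : ℕ) (hr : 10 ≤ r) (hd : 1 ≤ d) (m : Fin r → ℕ)
    (hm : (d : ℝ) * Real.sqrt r ≤ ∑ i, (m i : ℝ)) :
    ∃ p q : ℕ, 0 < q ∧ ∀ (x : Fin r → ℂ), Function.Injective x → (∀ i, x i ≠ 0) →
      ∀ φ : ℕ → ℤ →₀ ℂ,
        (∀ j k, φ j k ≠ 0 → 3 * j ≤ d ∧ ((d : ℤ) - 3 * j) * p ≤ k * q ∧
          k * q ≤ ((d : ℤ) - 3 * j) * (p + 3 * q)) →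
        (∀ (i : Fin r) (a b : ℕ), a + b < m i →
          ∑ j ∈ Finset.range (d + 1),
            (j : ℂ) ^ b * (φ j).sum (fun k c => c * (k : ℂ) ^ a * x i ^ k) = 0) →
        ∀ j, φ j = 0 := by
  classical
  set be := Real.sqrt r with hbe
  have hr' : (10 : ℝ) ≤ r := by exact_mod_cast hr
  have hbe2 : be * be = r := Real.mul_self_sqrt (by linarith)
  have hbe3 : 3 < be := Real.lt_sqrt_of_sq_lt (by linarith)
  obtain ⟨p, q, hq, hp, hlt, hceil⟩ := core_rat be hbe3 d
  refine ⟨p, q, hq, fun x hx hx0 φ hφ hvan => ?_⟩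
  have hq' : (0 : ℝ) < q := by exact_mod_cast hq
  set al : ℝ := (p : ℝ) / q with hal
  have hal0 : 0 < al := div_pos (by exact_mod_cast hp) hq'
  have hφ' : ∀ j k, φ j k ≠ 0 → 3 * j ≤ d ∧ ((d : ℝ) - 3 * j) * al ≤ k ∧
      (k : ℝ) ≤ ((d : ℝ) - 3 * j) * (al + 3) := by
    intro j k hk
    obtain ⟨h1, h2, h3⟩ := hφ j k hk
    have h2' : ((d : ℝ) - 3 * j) * p ≤ k * q := by exact_mod_cast h2
    have h3' : (k : ℝ) * q ≤ ((d : ℝ) - 3 * j) * (p + 3 * q) := by exact_mod_cast h3
    refine ⟨h1, ?_, ?_⟩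
    · rw [hal, ← mul_div_assoc, div_le_iff₀ hq']; exact h2'
    · have : al + 3 = (p + 3 * q) / q := by rw [hal]; field_simp
      rw [this, ← mul_div_assoc, le_div_iff₀ hq']; exact h3'
  have hV : ∀ ka k, (∀ b < ka, ∑ j ∈ range (d + 1), (j : ℂ) ^ b * φ j k = 0) →
      ((range (d + 1)).filter fun j => φ j k ≠ 0).card ≤ ka → ∀ j, φ j k = 0 := by
    intro ka k h1 h2 j
    by_contra hj
    refine hj (core_vander _ (fun j => φ j k) ka h2 (fun b hb => ?_) j
      (mem_filter.mpr ⟨mem_range.mpr (by have := (hφ j k hj).1; omega), hj⟩))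
    rw [sum_filter_of_ne, h1 b hb]
    intro j _ h e
    exact h (by rw [e, mul_zero])
  have hP : ∀ ka ≤ d + 1, ∀ k, ∀ b < ka, ∑ j ∈ range (d + 1), (j : ℂ) ^ b * φ j k = 0 := by
    intro ka
    induction ka with
    | zero => intro _ k b hb; omega
    | succ ka ih =>
      intro hka k b hb
      have ih' := ih (by omega)
      rcases Nat.lt_succ_iff_lt_or_eq.mp hb with hb | rfl
      · exact ih' k b hb
      set c : ℤ →₀ ℂ := ∑ j ∈ range (d + 1), ((j : ℂ) ^ b) • φ j with hc
      have hck : ∀ k, c k = ∑ j ∈ range (d + 1), (j : ℂ) ^ b * φ j k := by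
        intro k
        rw [hc, Finsupp.finsetSum_apply]
        rfl
      have hc0 : c = 0 := by
        refine core_hermite x hx hx0 (fun i => m i - b) c ⌈(b : ℝ) * (be - 3) * be⌉
          (fun k hk => ?_) (fun i a ha => ?_)
        · set J := (range (d + 1)).filter fun j => φ j k ≠ 0 with hJ
          have hJc : b < J.card := by
            by_contra h'
            refine hk ?_
            rw [hck]
            exact sum_eq_zero fun j _ => by rw [hV b k (ih' k) (not_lt.mp h') j, mul_zero]
          have hne : J.Nonempty := card_pos.mp (by omega)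
          have h0 := hφ' _ k (mem_filter.mp (J.min'_mem hne)).2
          have h1 := hφ' _ k (mem_filter.mp (J.max'_mem hne)).2
          have h2 : J.card ≤ (Icc (J.min' hne) (J.max' hne)).card :=
            card_le_card fun j hj => mem_Icc.mpr ⟨J.min'_le j hj, J.le_max' j hj⟩
          rw [Nat.card_Icc] at h2
          have h3 : J.min' hne + b ≤ J.max' hne := by omega
          generalize J.min' hne = j0 at h0 h3
          generalize J.max' hne = j1 at h1 h3
          have h3' : (j0 : ℝ) + b ≤ j1 := by exact_mod_cast h3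
          have h4 : (3 : ℝ) * j1 ≤ d := by exact_mod_cast h1.1
          have h5 : (0 : ℝ) ≤ j0 := Nat.cast_nonneg _
          have h6 : (b : ℝ) * al * (al + 3) ≤ k := by
            have a1 : ((d : ℝ) - 3 * j1 + 3 * b) * al ≤ k :=
              le_trans (mul_le_mul_of_nonneg_right (by linarith) hal0.le) h0.2.1
            have a2 := mul_le_mul_of_nonneg_right a1 (show 0 ≤ al + 3 by linarith)
            have a3 := mul_le_mul_of_nonneg_right h1.2.2 hal0.le
            nlinarith
          have h7 := hceil b (by omega)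
          constructor
          · have : ((⌈(b : ℝ) * (be - 3) * be⌉ - 1 : ℤ) : ℝ) < k := by push_cast; linarith
            have := Int.cast_lt.mp this
            omega
          · have a1 : (k : ℝ) < be * ((d : ℝ) - 3 * b) := by
              have a2 : (k : ℝ) ≤ ((d : ℝ) - 3 * b) * (al + 3) :=
                h1.2.2.trans (mul_le_mul_of_nonneg_right (by linarith) (by linarith))
              rcases lt_or_eq_of_le (show (0 : ℝ) ≤ (d : ℝ) - 3 * b by linarith) with a3 | a3
              · nlinarith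
              · exfalso
                have a4 : (1 : ℝ) ≤ d := by exact_mod_cast hd
                have a5 : (0 : ℝ) < b := by linarith
                have a6 : 0 < (b : ℝ) * al * (al + 3) := by positivity
                rw [← a3, zero_mul] at a2
                linarith
            have a2 : ∑ i, (m i : ℝ) - b * r ≤ ((∑ i, (m i - b) : ℕ) : ℝ) := by
              have : (b : ℝ) * r = ∑ _i : Fin r, (b : ℝ) := by simp [mul_comm]
              rw [this, ← sum_sub_distrib, Nat.cast_sum]
              refine sum_le_sum fun i _ => ?_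
              have : m i ≤ (m i - b) + b := by omega
              have : (m i : ℝ) ≤ ((m i - b : ℕ) : ℝ) + b := by exact_mod_cast this
              linarith
            have a3 := Int.le_ceil ((b : ℝ) * (be - 3) * be)
            have a4 : (k : ℝ) < ((⌈(b : ℝ) * (be - 3) * be⌉ + (∑ i, (m i - b) : ℕ) : ℤ) : ℝ) := by
              rw [Int.cast_add, Int.cast_natCast]
              nlinarith
            exact Int.cast_lt.mp a4
        · rw [← hvan i a b (by omega), hc, ← Finsupp.sum_finsetSum_index (by simp)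
            (fun _ _ _ => by ring)]
          refine sum_congr rfl fun j _ => ?_
          rw [Finsupp.sum_smul_index' (by simp), Finsupp.mul_sum]
          exact Finsupp.sum_congr fun k _ => by rw [smul_eq_mul]; ring
      rw [← hck, hc0, Finsupp.zero_apply]
  intro j
  ext k
  exact hV (d + 1) k (hP (d + 1) le_rfl k) ((card_filter_le _ _).trans (card_range _).le) j

end Vale.Agent.P279
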