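import Mathlib

/-!
Division by a cubic form and independence of monomials on the nodal cubic.
-/

namespace Vale.Agent.P279

open MvPolynomial

theorem degree_three (M : Fin 3 →₀ ℕ) : M.degree = M 0 + M 1 + M 2 := by
  rw [Finsupp.degree_eq_sum, Fin.sum_univ_three]

theorem homog_degree {K : Type} [CommRing K] {H : MvPolynomial (Fin 3) K} {d : ℕ}
    (hH : H.IsHomogeneous d) {M : Fin 3 →₀ ℕ} (hM : M ∈ H.support) : M 0 + M 1 + M 2 = d := by
  rw [← degree_three]
  by_contra h
  exact (mem_support_iff.1 hM) (hH.coeff_eq_zero h)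

theorem comp_mul_cubic {K : Type} [CommRing K] {G : MvPolynomial (Fin 3) K}
    (hG : G.IsHomogeneous 3) (g : MvPolynomial (Fin 3) K) (d : ℕ) :
    homogeneousComponent d (g * G) =
      if 3 ≤ d then homogeneousComponent (d - 3) g * G else 0 := by
  have h1 : ∀ n, homogeneousComponent d (homogeneousComponent n g * G) =
      if d = n + 3 then homogeneousComponent n g * G else 0 := fun n =>
    homogeneousComponent_of_mem ((homogeneousComponent_isHomogeneous n g).mul hG)
  conv_lhs => rw [← sum_homogeneousComponent g, Finset.sum_mul, map_sum]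
  simp only [h1]
  split_ifs with h
  · rw [Finset.sum_eq_single (d - 3)]
    · rw [if_pos (by omega)]
    · intro b _ hb
      rw [if_neg (by omega)]
    · intro hb
      rw [homogeneousComponent_eq_zero _ _ (by rw [Finset.mem_range] at hb; omega)]
      simp
  · exact Finset.sum_eq_zero fun n _ => if_neg (by omega)

theorem decomp {K R : Type} [Field K] [CommRing R] (h3 : (3 : K) ≠ 0) (ι : K →+* R)
    (θ : Fin 3 → R) (G : MvPolynomial (Fin 3) K) (hG : G.IsHomogeneous 3) (hG0 : G ≠ 0)
    (hGθ : eval₂ ι θ G = 0)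
    (hinj : ∀ (d : ℕ) (H : MvPolynomial (Fin 3) K), H.IsHomogeneous d →
      (∀ M ∈ H.support, M 0 ≤ 2) → eval₂ ι θ H = 0 → H = 0) :
    (∀ (d : ℕ) (H : MvPolynomial (Fin 3) K), H.IsHomogeneous d → H ≠ 0 →
      ∃ (k : ℕ) (H' : MvPolynomial (Fin 3) K), 3 * k ≤ d ∧ H'.IsHomogeneous (d - 3 * k) ∧
        H = G ^ k * H' ∧ eval₂ ι θ H' ≠ 0) ∧ eval₂ ι θ (pderiv 0 G) ≠ 0 := by
  classical
  have hsup : ∀ M ∈ G.support, M 0 ≤ 2 ∨ M = Finsupp.single 0 3 := by
    intro M hM
    have := homog_degree hG hM
    by_cases h : M 0 ≤ 2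
    · exact Or.inl h
    · right
      ext i
      fin_cases i <;> simp <;> omega
  have hc : G.coeff (Finsupp.single 0 3) ≠ 0 := by
    intro h
    refine hG0 (hinj 3 G hG (fun M hM => ?_) hGθ)
    rcases hsup M hM with h1 | h1
    · exact h1
    · rw [h1] at hM
      exact absurd h (mem_support_iff.1 hM)
  have hdeg : MonomialOrder.lex.degree G = Finsupp.single 0 3 := by
    rcases hsup _ (MonomialOrder.lex.degree_mem_support hG0) with h1 | h1
    · exfalso
      have h2 := MonomialOrder.lex.le_degree (mem_support_iff.2 hc)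
      rw [MonomialOrder.lex_le_iff] at h2
      refine absurd h2 (not_le.2 ?_)
      rw [Finsupp.Lex.lt_iff]
      refine ⟨0, fun j hj => absurd hj (by simp), ?_⟩
      simp only [ofLex_toLex, Finsupp.single_eq_same]
      omega
    · exact h1
  refine ⟨?_, ?_⟩
  · intro d
    induction d using Nat.strong_induction_on with
    | _ d ih =>
    intro H hH hH0
    by_cases hθ : eval₂ ι θ H = 0
    · obtain ⟨g, r, h1, _, h2⟩ := MonomialOrder.div_single (m := MonomialOrder.lex) (b := G)
        (by simpa using hG0) H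
      have h4 : H = homogeneousComponent d (g * G) + homogeneousComponent d r := by
        rw [← map_add, ← h1, homogeneousComponent_eq_self hH]
      rw [comp_mul_cubic hG] at h4
      have h5 : homogeneousComponent d r = 0 := by
        refine hinj d _ (homogeneousComponent_isHomogeneous d r) ?_ ?_
        · intro M hM
          rw [support_homogeneousComponent] at hM
          have := h2 M (Finset.mem_filter.1 hM).1
          rw [hdeg, Finsupp.single_le_iff] at this
          omega
        · rw [h4, eval₂_add] at hθ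
          split_ifs at hθ
          · simpa [hGθ] using hθ
          · simpa using hθ
      rw [h5, add_zero] at h4
      split_ifs at h4 with hd
      · obtain ⟨k, H', h6, h7, h8, h9⟩ := ih (d - 3) (by omega) _
          (homogeneousComponent_isHomogeneous (d - 3) g) (by
            intro h; rw [h, zero_mul] at h4; exact hH0 h4)
        refine ⟨k + 1, H', by omega, ?_, ?_, h9⟩
        · have e : d - 3 * (k + 1) = d - 3 - 3 * k := by omega
          rw [e]; exact h7
        · rw [h4, h8]; ring
      · exact absurd h4 hH0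
    · exact ⟨0, H, by simp, by simpa using hH, by simp, hθ⟩
  · intro h
    have h1 : (pderiv 0 G).IsHomogeneous 2 := hG.pderiv
    have h2 := hinj 2 _ h1 (fun M hM => by have := homog_degree h1 hM; omega) h
    have h4 := congrArg (coeff (Finsupp.single 0 2)) h2
    rw [coeff_pderiv, ← Finsupp.single_add] at h4
    simp only [Finsupp.single_eq_same, coeff_zero] at h4
    norm_num at h4
    rcases h4 with h4 | h4
    · exact hc h4
    · exact h3 h4

theorem nodal_indep (i : ℕ) (s : Finset (Fin 3 →₀ ℕ)) (a : (Fin 3 →₀ ℕ) → ℂ)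
    (hs : ∀ M ∈ s, M 0 + M 1 + M 2 = i ∧ M 0 ≤ 2)
    (h : ∑ M ∈ s, Polynomial.C (a M) * (Polynomial.X ^ M 0 * (1 + Polynomial.X ^ 3) ^ M 1 *
      (Polynomial.X ^ 2) ^ M 2) = 0) : ∀ M ∈ s, a M = 0 := by
  classical
  have key : ∀ n, ∀ M ∈ s, M 1 = n → a M = 0 := by
    intro n
    induction n using Nat.strong_induction_on with
    | _ n ih =>
    have hne : (1 + Polynomial.X ^ 3 : Polynomial ℂ) ≠ 0 := by
      intro h0
      have := congrArg (Polynomial.eval 0) h0
      simp at this
    have h1 : (1 + Polynomial.X ^ 3 : Polynomial ℂ) ^ n * ∑ M ∈ s, Polynomial.C (a M) *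
        (Polynomial.X ^ M 0 * (1 + Polynomial.X ^ 3) ^ (M 1 - n) * (Polynomial.X ^ 2) ^ M 2) = 0 := by
      rw [← h, Finset.mul_sum]
      refine Finset.sum_congr rfl fun M hM => ?_
      by_cases hn : M 1 < n
      · simp [ih _ hn M hM rfl]
      · obtain ⟨c, hc⟩ := Nat.exists_eq_add_of_le (not_lt.1 hn)
        rw [hc, Nat.add_sub_cancel_left]
        ring
    have h2 := (mul_eq_zero.1 h1).resolve_left (pow_ne_zero _ hne)
    set P : Polynomial ℂ := ∑ M ∈ s, if M 1 = n then Polynomial.C (a M) *
      Polynomial.X ^ (2 - M 0) else 0 with hP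
    have h3 : (1 + Polynomial.X ^ 3 : Polynomial ℂ) ∣ Polynomial.X ^ (2 * (i - n)) * P := by
      have e : Polynomial.X ^ (2 * (i - n)) * P = Polynomial.X ^ (2 * (i - n)) * P -
          Polynomial.X ^ 2 * ∑ M ∈ s, Polynomial.C (a M) * (Polynomial.X ^ M 0 *
            (1 + Polynomial.X ^ 3) ^ (M 1 - n) * (Polynomial.X ^ 2) ^ M 2) := by
        rw [h2]; ring
      rw [e, hP, Finset.mul_sum, Finset.mul_sum, ← Finset.sum_sub_distrib]
      refine Finset.dvd_sum fun M hM => ?_
      obtain ⟨h4, h5⟩ := hs M hM
      rcases lt_trichotomy (M 1) n with hn | hn | hn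
      · simp [ih _ hn M hM rfl]
      · rw [if_pos hn, hn, Nat.sub_self]
        have e1 : (Polynomial.X : Polynomial ℂ) ^ (2 * (i - n)) * Polynomial.X ^ (2 - M 0) =
            Polynomial.X ^ 2 * (Polynomial.X ^ M 0 * (Polynomial.X ^ 2) ^ M 2) := by
          rw [← pow_mul, ← pow_add, ← pow_add, ← pow_add]
          congr 1
          omega
        have e2 : Polynomial.X ^ (2 * (i - n)) * (Polynomial.C (a M) * Polynomial.X ^ (2 - M 0)) -
            Polynomial.X ^ 2 * (Polynomial.C (a M) * (Polynomial.X ^ M 0 *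
              (1 + Polynomial.X ^ 3) ^ 0 * (Polynomial.X ^ 2) ^ M 2)) = 0 := by
          linear_combination (Polynomial.C (a M)) * e1
        rw [e2]
        exact dvd_zero _
      · rw [if_neg hn.ne']
        obtain ⟨c, hc⟩ := Nat.exists_eq_add_of_lt hn
        have e1 : M 1 - n = c + 1 := by omega
        rw [e1]
        exact ⟨-(Polynomial.X ^ 2 * (Polynomial.C (a M) * (Polynomial.X ^ M 0 *
          (1 + Polynomial.X ^ 3) ^ c * (Polynomial.X ^ 2) ^ M 2))), by ring⟩
    have h4 : IsCoprime (1 + Polynomial.X ^ 3 : Polynomial ℂ) Polynomial.X :=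
      ⟨1, -Polynomial.X ^ 2, by ring⟩
    have h5 := (h4.pow_right (n := 2 * (i - n))).dvd_of_dvd_mul_left h3
    have h6 : P = 0 := by
      refine Polynomial.eq_zero_of_dvd_of_natDegree_lt h5 ?_
      have e1 : (1 + Polynomial.X ^ 3 : Polynomial ℂ).natDegree = 3 := by
        rw [add_comm, ← Polynomial.C_1, Polynomial.natDegree_X_pow_add_C]
      rw [e1, Nat.lt_succ_iff, hP]
      refine Polynomial.natDegree_sum_le_of_forall_le _ _ fun M _ => ?_
      split_ifs
      · exact (Polynomial.natDegree_C_mul_X_pow_le _ _).trans (by omega)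
      · simp
    intro M hM hn
    have h7 := congrArg (fun p => Polynomial.coeff p (2 - M 0)) h6
    simp only [hP, Polynomial.finsetSum_coeff, Polynomial.coeff_zero] at h7
    rw [Finset.sum_eq_single M] at h7
    · simpa [hn] using h7
    · intro b hb hbM
      split_ifs with h8
      · rw [Polynomial.coeff_C_mul_X_pow, if_neg]
        intro h9
        apply hbM
        have := hs b hb
        have := hs M hM
        ext j
        fin_cases j <;> simp <;> omega
      · simp
    · intro h8
      exact absurd hM h8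
  exact fun M hM => key _ M hM rfl

end Vale.Agent.P279
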