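import Mathlib

/-!
Statement-level definitions for Nagata's conjecture.
-/

namespace Vale.Agent.P279

open MvPolynomial

/-- The complex projective plane. -/
abbrev P2 : Type := Projectivization ℂ (Fin 3 → ℂ)

/-- The set `U_r` of `r`-tuples of pairwise distinct points of the plane. -/
def distinctTuples (r : ℕ) : Set (Fin r → P2) := {p | Function.Injective p}

/-- A polynomial in the `3 r` homogeneous coordinates of an `r`-tuple of points which is
homogeneous in each of the `r` groups of three coordinates. -/
def IsMultiHomogeneous {r : ℕ} (P : MvPolynomial (Fin r × Fin 3) ℂ) : Prop :=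
  ∀ i : Fin r, ∃ k : ℕ, IsWeightedHomogeneous (fun a : Fin r × Fin 3 => if a.1 = i then 1 else 0) P k

/-- Zariski-closed subsets of `U_r`: the common zeros in `U_r` of a family of multihomogeneous
polynomials. -/
def IsZariskiClosedIn (r : ℕ) (Z : Set (Fin r → P2)) : Prop :=
  ∃ S : Set (MvPolynomial (Fin r × Fin 3) ℂ), (∀ P ∈ S, IsMultiHomogeneous P) ∧
    Z = {p | p ∈ distinctTuples r ∧ ∀ P ∈ S, eval (fun a => (p a.1).rep a.2) P = 0}

/-- The iterated derivative of `F` along the list `l` of variables. -/
noncomputable def iterD {K : Type} [CommRing K] (l : List (Fin 3)) (F : MvPolynomial (Fin 3) K) :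
    MvPolynomial (Fin 3) K :=
  l.foldr (fun a G => pderiv a G) F

/-- The curve `F = 0` has multiplicity at least `m` at `p`: all derivatives of `F` of order
less than `m` vanish at `p`. -/
def MultGE (F : MvPolynomial (Fin 3) ℂ) (p : P2) (m : ℕ) : Prop :=
  ∀ l : List (Fin 3), l.length < m → eval p.rep (iterD l F) = 0

end Vale.Agent.P279
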