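import Vale.Agent.P279.Van

/-!
Laurent series over Laurent polynomials: coefficients, shears, evaluation, Euler operator.
-/

namespace Vale.Agent.P279

open MvPolynomial

/-- Laurent polynomials in `x`. -/
abbrev LA : Type := LaurentPolynomial ℂ
/-- Laurent series in `t` over Laurent polynomials in `x`. -/
abbrev LR : Type := HahnSeries ℤ LA
/-- Laurent series in `t`. -/
abbrev LK : Type := HahnSeries ℤ ℂ

/-- Coefficientwise ring map of Laurent series. -/
noncomputable def hmap {A B : Type} [CommRing A] [CommRing B] (φ : A →+* B) :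
    HahnSeries ℤ A →+* HahnSeries ℤ B where
  toFun x := x.map φ
  map_one' := by
    ext n
    simp only [HahnSeries.map_coeff, HahnSeries.coeff_one]
    split_ifs <;> simp
  map_mul' x y := HahnSeries.map_mul φ.toNonUnitalRingHom
  map_zero' := by ext n; simp
  map_add' x y := by ext n; simp

theorem coeff_hmap {A B : Type} [CommRing A] [CommRing B] (φ : A →+* B) (x : HahnSeries ℤ A)
    (n : ℤ) : (hmap φ x).coeff n = φ (x.coeff n) := rfl

/-- Coefficientwise additive map of Laurent series. -/
noncomputable def hadd {A B : Type} [CommRing A] [CommRing B] (φ : A →+ B) :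
    HahnSeries ℤ A →+ HahnSeries ℤ B where
  toFun x := x.map φ
  map_zero' := by ext n; simp
  map_add' x y := by ext n; simp

theorem coeff_hadd {A B : Type} [CommRing A] [CommRing B] (φ : A →+ B) (x : HahnSeries ℤ A)
    (n : ℤ) : (hadd φ x).coeff n = φ (x.coeff n) := rfl

theorem IsDer.hadd {A : Type} [CommRing A] {D : A →+ A} (h : IsDer D) : IsDer (hadd D) := by
  intro x y
  have hs : ∀ z : HahnSeries ℤ A, (Vale.Agent.P279.hadd D z).support ⊆ z.support := by
    intro z n hn
    rw [HahnSeries.mem_support] at hn ⊢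
    intro h0
    rw [coeff_hadd, h0, map_zero] at hn
    exact hn rfl
  ext n
  rw [coeff_hadd, HahnSeries.coeff_add, mul_comm y,
    HahnSeries.coeff_mul_right' y.isPWO_support (hs y),
    HahnSeries.coeff_mul_left' x.isPWO_support (hs x), HahnSeries.coeff_mul, map_sum,
    ← Finset.sum_add_distrib]
  refine Finset.sum_congr rfl fun c _ => ?_
  rw [h, coeff_hadd, coeff_hadd]
  ring

/-- Constants. -/
noncomputable def iota : LK →+* LR := hmap LaurentPolynomial.C

/-- Evaluation of a Laurent polynomial. -/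
noncomputable def evA (x : ℂ) (hx : x ≠ 0) : LA →+* ℂ :=
  LaurentPolynomial.eval₂ (RingHom.id ℂ) (Units.mk0 x hx)

theorem evA_single (x : ℂ) (hx : x ≠ 0) (k : ℤ) (c : ℂ) :
    evA x hx (AddMonoidAlgebra.single k c) = c * x ^ k := by
  rw [LaurentPolynomial.single_eq_C_mul_T, evA, LaurentPolynomial.eval₂_C_mul_T]
  simp

/-- The Euler operator on Laurent polynomials. -/
noncomputable def eulA : LA →+ LA where
  toFun p := AddMonoidAlgebra.ofCoeff (Finsupp.onFinset p.coeff.support
    (fun k => (k : ℂ) * p.coeff k) fun k hk => by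
      rw [Finsupp.mem_support_iff]; intro h; rw [h, mul_zero] at hk; exact hk rfl)
  map_zero' := by ext k; simp
  map_add' p q := by ext k; simp [mul_add]

theorem coeff_eulA (p : LA) (k : ℤ) : (eulA p).coeff k = (k : ℂ) * p.coeff k := rfl

theorem eulA_single (k : ℤ) (c : ℂ) :
    eulA (AddMonoidAlgebra.single k c) = AddMonoidAlgebra.single k ((k : ℂ) * c) := by
  ext j
  rw [coeff_eulA]
  simp only [AddMonoidAlgebra.coeff_single, Finsupp.single_apply]
  split_ifs with h
  · rw [h]
  · simp

theorem isDer_eulA : IsDer eulA := by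
  intro x y
  induction x using AddMonoidAlgebra.induction_linear with
  | zero => simp
  | add a b ha hb => rw [add_mul, map_add, ha, hb, map_add]; ring
  | single k c =>
    induction y using AddMonoidAlgebra.induction_linear with
    | zero => simp
    | add a b ha hb => rw [mul_add, map_add, ha, hb, map_add]; ring
    | single j e =>
      rw [AddMonoidAlgebra.single_mul_single, eulA_single, eulA_single, eulA_single,
        AddMonoidAlgebra.single_mul_single, AddMonoidAlgebra.single_mul_single, add_comm j k,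
        ← AddMonoidAlgebra.single_add]
      congr 1
      push_cast
      ring

theorem evA_iter (x : ℂ) (hx : x ≠ 0) (a : ℕ) (p : LA) :
    evA x hx (eulA^[a] p) = p.coeff.sum fun k c => c * (k : ℂ) ^ a * x ^ k := by
  induction p using AddMonoidAlgebra.induction_linear with
  | zero => simp [iterate_map_zero]
  | add p q hp hq =>
    rw [iterate_map_add, map_add, hp, hq, AddMonoidAlgebra.coeff_add, Finsupp.sum_add_index']
    · simp
    · intro k b1 b2; ring
  | single k c =>
    have : ∀ a : ℕ, eulA^[a] (AddMonoidAlgebra.single k c) =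
        AddMonoidAlgebra.single k (c * (k : ℂ) ^ a) := by
      intro a
      induction a with
      | zero => simp
      | succ a ih =>
        rw [Function.iterate_succ_apply', ih, eulA_single]
        congr 1
        ring
    rw [this, evA_single, AddMonoidAlgebra.coeff_single, Finsupp.sum_single_index]
    simp

theorem coeff_iter_hadd (a : ℕ) (f : LR) (n : ℤ) :
    ((hadd eulA)^[a] f).coeff n = eulA^[a] (f.coeff n) := by
  induction a with
  | zero => rfl
  | succ a ih => rw [Function.iterate_succ_apply', Function.iterate_succ_apply', coeff_hadd, ih]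

theorem hadd_iota (a : LK) : hadd eulA (iota a) = 0 := by
  ext n k
  rw [coeff_hadd, coeff_eulA, iota, coeff_hmap, LaurentPolynomial.C_apply]
  split_ifs with h
  · simp [h]
  · simp

theorem ev_iota (x : ℂ) (hx : x ≠ 0) (a : LK) : hmap (evA x hx) (iota a) = a := by
  ext n
  rw [coeff_hmap, iota, coeff_hmap, ← LaurentPolynomial.single_eq_C, evA_single]
  simp

/-- The coefficient of `x ^ k t ^ n`. -/
def cf (f : LR) (p : ℤ × ℤ) : ℂ := (f.coeff p.2).coeff p.1

theorem cf_ext {f g : LR} (h : ∀ p, cf f p = cf g p) : f = g := by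
  ext n k
  exact h (k, n)

theorem cf_mul (f g : LR) (p : ℤ × ℤ) : cf (f * g) p = ∑ᶠ q, cf f q * cf g (p - q) := by
  classical
  set S := Finset.antidiagonal f.isPWO_support g.isPWO_support p.2 with hS
  set Ks := S.biUnion fun ij => (f.coeff ij.1).coeff.support with hKs
  rw [finsum_eq_sum_of_support_subset (s := Ks ×ˢ S.image Prod.fst)]
  · rw [Finset.sum_product_right, Finset.sum_image, cf, HahnSeries.coeff_mul,
      AddMonoidAlgebra.coeff_sum, Finsupp.finsetSum_apply]
    · refine Finset.sum_congr rfl fun ij hij => ?_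
      rw [AddMonoidAlgebra.coeff_mul_apply_left, Finsupp.sum_of_support_subset _ (s := Ks)]
      · refine Finset.sum_congr rfl fun k _ => ?_
        have h2 := (Finset.mem_antidiagonal.1 hij).2.2
        have e1 : ij.2 = p.2 - ij.1 := by rw [← h2]; ring
        simp only [cf, Prod.snd_sub, Prod.fst_sub, e1]
        rw [neg_add_eq_sub]
      · exact Finset.subset_biUnion_of_mem (fun ij => (f.coeff ij.1).coeff.support) hij
      · simp
    · intro a ha b hb hab
      have h1 := (Finset.mem_antidiagonal.1 ha).2.2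
      have h2 := (Finset.mem_antidiagonal.1 hb).2.2
      ext
      · exact hab
      · have : a.1 = b.1 := hab
        omega
  · intro q hq
    rw [Function.mem_support] at hq
    have h1 : cf f q ≠ 0 := left_ne_zero_of_mul hq
    have h2 : cf g (p - q) ≠ 0 := right_ne_zero_of_mul hq
    have h3 : (q.2, p.2 - q.2) ∈ S := by
      rw [hS, Finset.mem_antidiagonal]
      refine ⟨?_, ?_, by simp⟩
      · rw [HahnSeries.mem_support]
        intro h
        apply h1
        simp only [cf]
        rw [h]
        simp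
      · rw [HahnSeries.mem_support]
        intro h
        apply h2
        simp only [cf, Prod.snd_sub]
        rw [h]
        simp
    simp only [Finset.coe_product, Set.mem_prod, Finset.mem_coe]
    refine ⟨Finset.mem_biUnion.2 ⟨_, h3, Finsupp.mem_support_iff.2 h1⟩,
      Finset.mem_image.2 ⟨_, h3, rfl⟩⟩

/-- `f'` is `f` after the substitution `x ↦ t ^ c x`, multiplied by the monomial `δ`. -/
def Rel (c : ℤ) (δ : ℤ × ℤ) (f f' : LR) : Prop :=
  ∀ k n : ℤ, cf f' (k + δ.1, n + c * k + δ.2) = cf f (k, n)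

theorem Rel.zero (c : ℤ) (δ : ℤ × ℤ) : Rel c δ 0 0 := fun _ _ => rfl

theorem Rel.add {c : ℤ} {δ : ℤ × ℤ} {f f' g g' : LR} (h : Rel c δ f f') (h' : Rel c δ g g') :
    Rel c δ (f + g) (f' + g') := by
  intro k n
  have h1 := h k n
  have h2 := h' k n
  simp only [cf, HahnSeries.coeff_add, AddMonoidAlgebra.coeff_add, Finsupp.add_apply] at h1 h2 ⊢
  rw [h1, h2]

theorem Rel.mul {c : ℤ} {δ ε : ℤ × ℤ} {f f' g g' : LR} (h : Rel c δ f f') (h' : Rel c ε g g') :
    Rel c (δ + ε) (f * g) (f' * g') := by
  intro k n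
  let e : ℤ × ℤ ≃ ℤ × ℤ :=
    { toFun := fun q => (q.1 + δ.1, q.2 + c * q.1 + δ.2)
      invFun := fun q => (q.1 - δ.1, q.2 - c * (q.1 - δ.1) - δ.2)
      left_inv := fun q => by ext <;> simp only <;> ring
      right_inv := fun q => by ext <;> simp only <;> ring }
  rw [cf_mul, cf_mul, ← finsum_comp_equiv e]
  refine finsum_congr fun q => ?_
  have h1 := h q.1 q.2
  have h2 := h' (k - q.1) (n - q.2)
  have e1 : ((k + (δ + ε).1, n + c * k + (δ + ε).2) : ℤ × ℤ) - e q =
      (k - q.1 + ε.1, n - q.2 + c * (k - q.1) + ε.2) := by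
    ext
    · simp [e]; ring
    · simp [e]; ring
  rw [e1, h2]
  exact congrArg (· * _) h1

theorem Rel.iota (c : ℤ) (a : LK) : Rel c 0 (iota a) (iota a) := by
  intro k n
  simp only [cf, Vale.Agent.P279.iota, coeff_hmap, LaurentPolynomial.C_apply, Prod.fst_zero,
    Prod.snd_zero, add_zero]
  split_ifs with h
  · simp [h]
  · rfl

theorem Rel.pow {c : ℤ} {δ : ℤ × ℤ} {f f' : LR} (h : Rel c δ f f') (n : ℕ) :
    Rel c (n • δ) (f ^ n) (f' ^ n) := by
  induction n with
  | zero => simpa using Rel.iota c 1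
  | succ n ih => rw [succ_nsmul, pow_succ, pow_succ]; exact ih.mul h

theorem Rel.eval {c : ℤ} {δ : ℤ × ℤ} {θ θ' : Fin 3 → LR} (h : ∀ e, Rel c δ (θ e) (θ' e))
    {H : MvPolynomial (Fin 3) LK} {i : ℕ} (hH : H.IsHomogeneous i) :
    Rel c (i • δ) (eval₂ Vale.Agent.P279.iota θ H) (eval₂ Vale.Agent.P279.iota θ' H) := by
  rw [eval₂_eq', eval₂_eq']
  have key : ∀ s : Finset (Fin 3 →₀ ℕ), s ⊆ H.support → Rel c (i • δ)
      (∑ d ∈ s, Vale.Agent.P279.iota (coeff d H) * ∏ e, θ e ^ d e)
      (∑ d ∈ s, Vale.Agent.P279.iota (coeff d H) * ∏ e, θ' e ^ d e) := by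
    intro s
    induction s using Finset.cons_induction with
    | empty => intro _; exact Rel.zero _ _
    | cons M s hM ih =>
      intro hs
      rw [Finset.sum_cons, Finset.sum_cons]
      refine Rel.add ?_ (ih fun x hx => hs (Finset.mem_cons_of_mem hx))
      have hd : M.degree = i := by
        by_contra hne
        exact (mem_support_iff.1 (hs (Finset.mem_cons_self _ _))) (hH.coeff_eq_zero hne)
      rw [Finsupp.degree_eq_sum, Fin.sum_univ_three] at hd
      rw [Fin.prod_univ_three, Fin.prod_univ_three]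
      have := (Rel.iota c (coeff M H)).mul
        ((((h 0).pow (M 0)).mul ((h 1).pow (M 1))).mul ((h 2).pow (M 2)))
      rwa [zero_add, ← add_nsmul, ← add_nsmul, hd] at this
  exact key _ subset_rfl

theorem Rel.eq_zero_iff {c : ℤ} {δ : ℤ × ℤ} {f f' : LR} (h : Rel c δ f f') : f = 0 ↔ f' = 0 := by
  constructor
  · intro h0
    refine cf_ext fun p => ?_
    have := h (p.1 - δ.1) (p.2 - c * (p.1 - δ.1) - δ.2)
    rw [h0] at this
    have e : ((p.1 - δ.1 + δ.1, p.2 - c * (p.1 - δ.1) - δ.2 + c * (p.1 - δ.1) + δ.2) : ℤ × ℤ) = p := by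
      ext <;> simp only <;> ring
    rw [e] at this
    exact this
  · intro h0
    refine cf_ext fun p => ?_
    have := h p.1 p.2
    rw [h0] at this
    exact this.symm

/-- All `t`-exponents of `f` are at least `n`. -/
def Low {A : Type} [CommRing A] (n : ℤ) (f : HahnSeries ℤ A) : Prop := ∀ m < n, f.coeff m = 0

theorem Low.mul {A : Type} [CommRing A] {n1 n2 : ℤ} {f g : HahnSeries ℤ A} (hf : Low n1 f)
    (hg : Low n2 g) :
    Low (n1 + n2) (f * g) ∧ (f * g).coeff (n1 + n2) = f.coeff n1 * g.coeff n2 := by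
  constructor
  · intro m hm
    rw [HahnSeries.coeff_mul]
    refine Finset.sum_eq_zero fun ij hij => ?_
    have h2 := (Finset.mem_antidiagonal.1 hij).2.2
    by_cases h : ij.1 < n1
    · rw [hf _ h, zero_mul]
    · rw [hg ij.2 (by omega), mul_zero]
  · rw [HahnSeries.coeff_mul, Finset.sum_eq_single (n1, n2)]
    · intro ij hij hne
      have h2 := (Finset.mem_antidiagonal.1 hij).2.2
      by_cases h : ij.1 < n1
      · rw [hf _ h, zero_mul]
      · have : ij.2 < n2 := by
          by_contra h3
          exact hne (Prod.ext (by simp only; omega) (by simp only; omega))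
        rw [hg ij.2 this, mul_zero]
    · intro h
      rw [Finset.mem_antidiagonal] at h
      simp only [HahnSeries.mem_support, and_true, not_and, not_not] at h
      by_cases h1 : f.coeff n1 = 0
      · rw [h1, zero_mul]
      · rw [h h1, mul_zero]

theorem Low.pow {A : Type} [CommRing A] {f : HahnSeries ℤ A} (hf : Low 0 f) (n : ℕ) :
    Low 0 (f ^ n) ∧ (f ^ n).coeff 0 = f.coeff 0 ^ n := by
  induction n with
  | zero =>
    refine ⟨fun m hm => ?_, by simp⟩
    rw [pow_zero, HahnSeries.coeff_one, if_neg hm.ne]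
  | succ n ih =>
    have := ih.1.mul hf
    rw [add_zero] at this
    rw [pow_succ, pow_succ, this.2, ih.2]
    exact ⟨this.1, rfl⟩

theorem exists_of_coeff (g : ℤ × ℤ → ℂ) (h1 : ∀ n, {k | g (k, n) ≠ 0}.Finite)
    (h2 : ∃ B : ℤ, ∀ k n, g (k, n) ≠ 0 → B ≤ n) : ∃ f : LR, ∀ p, cf f p = g p := by
  obtain ⟨B, hB⟩ := h2
  refine ⟨HahnSeries.ofSuppBddBelow (fun n => AddMonoidAlgebra.ofCoeff
    (Finsupp.ofSupportFinite (fun k => g (k, n)) (h1 n))) ⟨B, fun n hn => ?_⟩, fun p => rfl⟩
  by_contra hlt
  apply hn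
  ext k
  by_contra hk
  exact hlt (hB k n hk)

end Vale.Agent.P279
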