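import Vale.Agent.P279.Van

/-!
Degeneration to the normal cone of a cubic.
-/

namespace Vale.Agent.P279

open MvPolynomial

section
variable {K R : Type} [Field K] [CommRing R]

/-- The moving point `θ + s y e`. -/
noncomputable def movPt (θ : Fin 3 → R) (a : Fin 3) : Polynomial (Polynomial R) :=
  Polynomial.C (Polynomial.C (θ a)) +
    Polynomial.X * Polynomial.C (if a = 0 then Polynomial.X else 0)

/-- Constants. -/
noncomputable def cc (ι : K →+* R) : K →+* Polynomial (Polynomial R) :=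
  Polynomial.C.comp (Polynomial.C.comp ι)

theorem expand_movPt (ι : K →+* R) (θ : Fin 3 → R) (H : MvPolynomial (Fin 3) K) :
    ∃ w, eval₂ (cc ι) (movPt θ) H = Polynomial.C (Polynomial.C (eval₂ ι θ H)) +
      Polynomial.X * Polynomial.C (Polynomial.X * Polynomial.C (eval₂ ι θ (pderiv 0 H))) +
      Polynomial.X ^ 2 * w := by
  induction H using MvPolynomial.induction_on with
  | C a => exact ⟨0, by simp [cc]⟩
  | add p q hp hq =>
    obtain ⟨w1, h1⟩ := hp
    obtain ⟨w2, h2⟩ := hq
    refine ⟨w1 + w2, ?_⟩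
    simp only [eval₂_add, h1, h2, map_add, mul_add]
    ring
  | mul_X p i hp =>
    obtain ⟨w, hw⟩ := hp
    refine ⟨w * movPt θ i + Polynomial.C (Polynomial.X * Polynomial.C (eval₂ ι θ (pderiv 0 p))) *
      Polynomial.C (if i = 0 then Polynomial.X else 0), ?_⟩
    rw [eval₂_mul, eval₂_X, hw]
    by_cases hi : i = 0
    · subst hi
      simp only [movPt, Derivation.leibniz, pderiv_X, smul_eq_mul, eval₂_add, eval₂_mul, eval₂_X,
        Pi.single_eq_same, if_true, map_mul, map_add, mul_one]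
      ring
    · simp only [movPt, Derivation.leibniz, pderiv_X, smul_eq_mul, eval₂_mul, eval₂_X,
        Pi.single_eq_of_ne hi, hi, if_false, map_mul, mul_zero, map_zero, zero_add]
      ring

theorem expand_term (ι : K →+* R) (θ : Fin 3 → R) (G H : MvPolynomial (Fin 3) K)
    (hG0 : eval₂ ι θ G = 0) (k : ℕ) :
    ∃ w, eval₂ (cc ι) (movPt θ) (G ^ k * H) = Polynomial.X ^ k *
      (Polynomial.C ((Polynomial.X * Polynomial.C (eval₂ ι θ (pderiv 0 G))) ^ k *
        Polynomial.C (eval₂ ι θ H)) + Polynomial.X * w) := by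
  obtain ⟨w1, h1⟩ := expand_movPt ι θ G
  obtain ⟨w2, h2⟩ := expand_movPt ι θ H
  induction k with
  | zero =>
    refine ⟨Polynomial.C (Polynomial.X * Polynomial.C (eval₂ ι θ (pderiv 0 H))) +
      Polynomial.X * w2, ?_⟩
    simp only [pow_zero, one_mul, h2]
    ring
  | succ k ih =>
    obtain ⟨w, hw⟩ := ih
    refine ⟨w * (Polynomial.C (Polynomial.X * Polynomial.C (eval₂ ι θ (pderiv 0 G))) +
      Polynomial.X * w1) +
      Polynomial.C ((Polynomial.X * Polynomial.C (eval₂ ι θ (pderiv 0 G))) ^ k *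
        Polynomial.C (eval₂ ι θ H)) * w1, ?_⟩
    have e : G ^ (k + 1) * H = G * (G ^ k * H) := by ring
    rw [e, eval₂_mul, hw, h1, hG0]
    simp only [map_mul, map_pow, map_zero]
    ring

/-- The coefficient of `s ^ n` in a form with coefficients in `K[s]`. -/
noncomputable def slice (F : MvPolynomial (Fin 3) (Polynomial K)) (n : ℕ) :
    MvPolynomial (Fin 3) K :=
  ∑ M ∈ F.support, monomial M ((F.coeff M).coeff n)

theorem coeff_slice (F : MvPolynomial (Fin 3) (Polynomial K)) (n : ℕ) (M : Fin 3 →₀ ℕ) :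
    (slice F n).coeff M = (F.coeff M).coeff n := by
  classical
  simp only [slice, coeff_sum, coeff_monomial]
  rw [Finset.sum_eq_single M]
  · simp
  · intro b _ hb
    simp [hb]
  · intro h
    simp [notMem_support_iff.1 h]

theorem slice_homog {F : MvPolynomial (Fin 3) (Polynomial K)} {d : ℕ} (hF : F.IsHomogeneous d)
    (n : ℕ) : (slice F n).IsHomogeneous d := by
  intro M hM
  apply hF
  intro h
  rw [coeff_slice, h] at hM
  simp at hM

theorem exists_sum_slice (F : MvPolynomial (Fin 3) (Polynomial K)) :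
    ∃ B : ℕ, (∀ n, slice F n ≠ 0 → n < B) ∧
      F = ∑ n ∈ Finset.range B, C (Polynomial.X ^ n) * map Polynomial.C (slice F n) := by
  classical
  refine ⟨(F.support.sup fun M => (F.coeff M).natDegree) + 1, ?_, ?_⟩
  · intro n hn
    obtain ⟨M, hM⟩ := ne_zero_iff.1 hn
    rw [coeff_slice] at hM
    have h1 : M ∈ F.support := by
      rw [mem_support_iff]; intro h; rw [h] at hM; simp at hM
    have h2 := Polynomial.le_natDegree_of_ne_zero hM
    have h3 : (F.coeff M).natDegree ≤ F.support.sup fun M => (F.coeff M).natDegree :=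
      Finset.le_sup (f := fun M => (F.coeff M).natDegree) h1
    omega
  · ext1 M
    simp only [coeff_sum, coeff_C_mul, coeff_map, coeff_slice]
    by_cases h1 : M ∈ F.support
    · have h3 : (F.coeff M).natDegree ≤ F.support.sup fun M => (F.coeff M).natDegree :=
        Finset.le_sup (f := fun M => (F.coeff M).natDegree) h1
      conv_lhs => rw [Polynomial.as_sum_range' (F.coeff M) _ (Nat.lt_succ_of_le h3)]
      refine Finset.sum_congr rfl fun n _ => ?_
      rw [mul_comm, Polynomial.C_mul_X_pow_eq_monomial]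
    · simp [notMem_support_iff.1 h1]

theorem leading_slice (ι : K →+* R) (θ : Fin 3 → R) (G : MvPolynomial (Fin 3) K)
    (hG0 : eval₂ ι θ G = 0)
    (hdec : ∀ (d : ℕ) (H : MvPolynomial (Fin 3) K), H.IsHomogeneous d → H ≠ 0 →
      ∃ (k : ℕ) (H' : MvPolynomial (Fin 3) K), 3 * k ≤ d ∧ H'.IsHomogeneous (d - 3 * k) ∧
        H = G ^ k * H' ∧ eval₂ ι θ H' ≠ 0)
    (d : ℕ) (F : MvPolynomial (Fin 3) (Polynomial K)) (hF : F.IsHomogeneous d) (hF0 : F ≠ 0) :
    ∃ (N : ℕ) (H : ℕ → MvPolynomial (Fin 3) K), (∀ j, (H j).IsHomogeneous (d - 3 * j)) ∧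
      (∀ j, d < 3 * j → H j = 0) ∧ (∃ j, eval₂ ι θ (H j) ≠ 0) ∧
      (eval₂ (Polynomial.mapRingHom (Polynomial.C.comp ι)) (movPt θ) F).coeff N =
        ∑ j ∈ Finset.range (d + 1),
          (Polynomial.X * Polynomial.C (eval₂ ι θ (pderiv 0 G))) ^ j *
            Polynomial.C (eval₂ ι θ (H j)) := by
  classical
  obtain ⟨B, hB, hFB⟩ := exists_sum_slice F
  have hch : ∀ n, ∃ (k : ℕ) (H' : MvPolynomial (Fin 3) K), slice F n ≠ 0 →
      3 * k ≤ d ∧ H'.IsHomogeneous (d - 3 * k) ∧ slice F n = G ^ k * H' ∧ eval₂ ι θ H' ≠ 0 := by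
    intro n
    by_cases h : slice F n = 0
    · exact ⟨0, 0, fun h' => absurd h h'⟩
    · obtain ⟨k, H', h'⟩ := hdec d _ (slice_homog hF n) h
      exact ⟨k, H', fun _ => h'⟩
  choose k H' hk using hch
  have hex : ∃ N, ∃ n, slice F n ≠ 0 ∧ n + k n = N := by
    by_contra hcon
    apply hF0
    rw [hFB]
    refine Finset.sum_eq_zero fun n _ => ?_
    have : slice F n = 0 := by
      by_contra h
      exact hcon ⟨_, n, h, rfl⟩
    simp [this]
  obtain ⟨N, hNs, hNm⟩ : ∃ N, (∃ n, slice F n ≠ 0 ∧ n + k n = N) ∧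
      ∀ n, slice F n ≠ 0 → N ≤ n + k n :=
    ⟨Nat.find hex, Nat.find_spec hex, fun n hn => Nat.find_min' hex ⟨n, hn, rfl⟩⟩
  refine ⟨N, fun j => ∑ n ∈ Finset.range B,
    if slice F n ≠ 0 ∧ k n = j ∧ n + j = N then H' n else 0, ?_, ?_, ?_, ?_⟩
  · intro j
    refine IsHomogeneous.sum _ _ _ fun n _ => ?_
    split_ifs with h
    · rw [← h.2.1]; exact (hk n h.1).2.1
    · exact isHomogeneous_zero _ _ _
  · intro j hj
    refine Finset.sum_eq_zero fun n _ => ?_
    rw [if_neg]
    rintro ⟨h1, h2, _⟩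
    have := (hk n h1).1
    omega
  · obtain ⟨n, hn, hN⟩ := hNs
    refine ⟨k n, ?_⟩
    beta_reduce
    rw [Finset.sum_eq_single n]
    · rw [if_pos ⟨hn, rfl, hN⟩]; exact (hk n hn).2.2.2
    · intro b _ hb
      rw [if_neg]
      rintro ⟨_, _, h3⟩
      omega
    · intro h
      exact absurd (Finset.mem_range.2 (hB n hn)) h
  · conv_lhs => rw [hFB]
    simp only [eval₂_sum, Finset.mul_sum, map_sum, Polynomial.finsetSum_coeff]
    rw [Finset.sum_comm]
    refine Finset.sum_congr rfl fun n _ => ?_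
    by_cases hn : slice F n = 0
    · simp [hn]
    · obtain ⟨h1, _, h3, _⟩ := hk n hn
      have hle : N ≤ n + k n := hNm n hn
      obtain ⟨w, hw⟩ := expand_term ι θ G (H' n) hG0 (k n)
      have e1 : (Polynomial.mapRingHom (Polynomial.C.comp ι)).comp Polynomial.C = cc ι := by
        ext a : 1
        simp [cc]
      rw [eval₂_mul, eval₂_C, eval₂_map, e1, h3, hw, Finset.sum_eq_single (k n)]
      · simp only [Polynomial.coe_mapRingHom, Polynomial.map_pow, Polynomial.map_X]
        rw [← mul_assoc, ← pow_add, Polynomial.coeff_X_pow_mul']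
        rw [← h3]
        by_cases h : n + k n = N
        · rw [if_pos h.le, if_pos ⟨hn, trivial, h⟩, h, Nat.sub_self, Polynomial.coeff_add,
            Polynomial.coeff_C_zero, Polynomial.coeff_X_mul_zero, add_zero]
        · rw [if_neg (by omega), if_neg (fun h' => h h'.2.2)]
          simp
      · intro b _ hb
        rw [if_neg (fun h' => hb h'.2.1.symm)]
        simp
      · intro h
        exact absurd (Finset.mem_range.2 (by omega)) h

theorem sdeg (ι : K →+* R) (D : R →+ R) (hD : IsDer D) (hDι : ∀ a, D (ι a) = 0)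
    (θ : Fin 3 → R) (G : MvPolynomial (Fin 3) K) (hG0 : eval₂ ι θ G = 0)
    (hdec : ∀ (d : ℕ) (H : MvPolynomial (Fin 3) K), H.IsHomogeneous d → H ≠ 0 →
      ∃ (k : ℕ) (H' : MvPolynomial (Fin 3) K), 3 * k ≤ d ∧ H'.IsHomogeneous (d - 3 * k) ∧
        H = G ^ k * H' ∧ eval₂ ι θ H' ≠ 0)
    {r : ℕ} (ev : Fin r → R →+* K) (hev : ∀ i a, ev i (ι a) = a)
    (hu : ∀ i, ev i (eval₂ ι θ (pderiv 0 G)) ≠ 0) :
    ∃ p : Fin r → Fin 3 → Polynomial K, ∀ (d : ℕ) (m : Fin r → ℕ)
      (F : MvPolynomial (Fin 3) (Polynomial K)), F.IsHomogeneous d → F ≠ 0 →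
      (∀ (i : Fin r) (l : List (Fin 3)), l.length < m i → eval (p i) (iterD l F) = 0) →
      ∃ H : ℕ → MvPolynomial (Fin 3) K, (∀ j, (H j).IsHomogeneous (d - 3 * j)) ∧
        (∀ j, d < 3 * j → H j = 0) ∧ (∃ j, eval₂ ι θ (H j) ≠ 0) ∧
        ∀ (i : Fin r) (a b : ℕ), a + b < m i →
          ∑ j ∈ Finset.range (d + 1), (j : K) ^ b * ev i (D^[a] (eval₂ ι θ (H j))) = 0 := by
  set u := eval₂ ι θ (pderiv 0 G) with hu_def
  let evT : Fin r → Polynomial R →+* K := fun i => Polynomial.eval₂RingHom (ev i) (ev i u)⁻¹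
  refine ⟨fun i a => Polynomial.mapRingHom (evT i) (movPt θ a), ?_⟩
  intro d m F hF hF0 hm
  obtain ⟨N, H, h1, h2, h3, h4⟩ := leading_slice ι θ G hG0 hdec d F hF hF0
  refine ⟨H, h1, h2, h3, ?_⟩
  intro i
  have hD1 : IsDer (liftD D) := hD.liftD
  have hE : IsDer (eulerD R) := isDer_eulerD R
  have hvan : Van (Polynomial.mapRingHom (evT i)) (liftD (liftD D)) (liftD (eulerD R)) (m i)
      (eval₂ (Polynomial.mapRingHom (Polynomial.C.comp ι)) (movPt θ) F) := by
    refine van_of_mult hD1.liftD hE.liftD _ ?_ ?_ ?_ _ _ _ (hm i)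
    · intro a
      ext n : 1
      simp [coeff_liftD, liftD_C, hDι]
    · intro a
      ext n : 1
      simp [coeff_liftD, eulerD_apply]
    · intro a
      ext n : 1
      simp [evT, hev]
  have hv0 := hvan.coeff N
  rw [h4] at hv0
  set w : Polynomial R := Polynomial.X * Polynomial.C u with hw
  let Ψ : ℕ → ℕ → Polynomial R := fun a b => ∑ j ∈ Finset.range (d + 1),
    (j : Polynomial R) ^ b * (w ^ j * Polynomial.C (D^[a] (eval₂ ι θ (H j))))
  have hEw : (1 : Polynomial R) * eulerD R w = 1 * w := by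
    simp [eulerD_apply, hw]
  have hDw : Polynomial.C u * liftD D w = Polynomial.C (D u) * w := by
    rw [hw, hD1, liftD_C, liftD_X hD]
    ring
  have hEΨ : ∀ a b, eulerD R (Ψ a b) = Ψ a (b + 1) := by
    intro a b
    simp only [Ψ, map_sum]
    refine Finset.sum_congr rfl fun j _ => ?_
    have e1 := hE.pow_eig hEw j
    have e2 : eulerD R (Polynomial.C (D^[a] (eval₂ ι θ (H j)))) = 0 := by simp [eulerD_apply]
    rw [hE, hE, hE.map_natCast_pow, e2]
    linear_combination ((j : Polynomial R) ^ b * Polynomial.C (D^[a] (eval₂ ι θ (H j)))) * e1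
  have hDΨ : ∀ a b, Polynomial.C u * Ψ (a + 1) b =
      Polynomial.C u * liftD D (Ψ a b) + (-Polynomial.C (D u)) * Ψ a (b + 1) := by
    intro a b
    simp only [Ψ, map_sum, Finset.mul_sum, ← Finset.sum_add_distrib]
    refine Finset.sum_congr rfl fun j _ => ?_
    have e1 := hD1.pow_eig hDw j
    rw [hD1, hD1, hD1.map_natCast_pow, liftD_C, Function.iterate_succ_apply']
    linear_combination
      (-((j : Polynomial R) ^ b * Polynomial.C (D^[a] (eval₂ ι θ (H j))))) * e1
  have hcu : evT i (Polynomial.C u) ≠ 0 := by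
    simpa [evT] using hu i
  have hall : ∀ a b n, a + b + n = m i → Van (evT i) (liftD D) (eulerD R) n (Ψ a b) := by
    intro a
    induction a with
    | zero =>
      intro b
      induction b with
      | zero =>
        intro n hn
        have : n = m i := by omega
        subst this
        simpa [Ψ] using hv0
      | succ b ih =>
        intro n hn
        rw [← hEΨ]
        exact (ih (n + 1) (by omega)).2.2
    | succ a ih =>
      intro b n hn
      apply Van.cancel hD1 hE hcu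
      rw [hDΨ]
      exact (Van.mul hD1 hE _ (ih b (n + 1) (by omega)).2.1).add
        (Van.mul hD1 hE _ (ih (b + 1) n (by omega)))
  intro a b hab
  have := (hall a b (m i - a - b - 1 + 1) (by omega)).1
  have hw1 : evT i w = 1 := by
    simp [evT, hw, hu i]
  simp only [Ψ, map_sum, map_mul, map_pow, map_natCast, hw1, one_pow, one_mul] at this
  simpa [evT] using this

end

end Vale.Agent.P279
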