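import Vale.Agent.P279.Defs

/-!
From a generic full rank statement to the statement for very general tuples of points.
-/

namespace Vale.Agent.P279

open MvPolynomial

namespace Tr

/-- A matrix over a field with trivial right kernel has an invertible square submatrix using
all the columns. -/
theorem exists_sel_field {K ι ρ : Type} [Field K] [Fintype ι] [DecidableEq ι] (A : ρ → ι → K)
    (h : ∀ c : ι → K, (∀ a, ∑ j, A a j * c j = 0) → c = 0) :
    ∃ sel : ι → ρ, (Matrix.of fun a j => A (sel a) j).det ≠ 0 := by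
  have htop : Submodule.span K (Set.range A) = ⊤ := by
    by_contra hne
    obtain ⟨f, hf0, hf⟩ := Submodule.exists_le_ker_of_lt_top _ (lt_top_iff_ne_top.2 hne)
    have hexp : ∀ v : ι → K, f v = ∑ j, v j * f (Pi.single j 1) := by
      intro v
      conv_lhs => rw [pi_eq_sum_univ' v]
      simp [map_sum]
    have hc := h (fun j => f (Pi.single j 1)) (fun a => by
      rw [← hexp]
      exact hf (Submodule.subset_span ⟨a, rfl⟩))
    apply hf0
    ext v
    have := congrFun hc v
    simpa using this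
  obtain ⟨κ, a, -, hsp, hli⟩ := exists_linearIndependent' K A
  let b : Module.Basis κ K (ι → K) := Module.Basis.mk hli (by rw [hsp, htop])
  let e : κ ≃ ι := b.indexEquiv (Pi.basisFun K ι)
  refine ⟨fun j => a (e.symm j), ?_⟩
  have hli2 : LinearIndependent K (Matrix.of fun i j => A (a (e.symm i)) j).row :=
    hli.comp e.symm e.symm.injective
  have hu := Matrix.linearIndependent_rows_iff_isUnit.1 hli2
  exact ((Matrix.isUnit_iff_isUnit_det _).1 hu).ne_zero

/-- The same over a domain. -/
theorem exists_sel {L ι ρ : Type} [CommRing L] [IsDomain L] [Fintype ι] [DecidableEq ι]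
    (A : ρ → ι → L) (h : ∀ c : ι → L, (∀ a, ∑ j, A a j * c j = 0) → c = 0) :
    ∃ sel : ι → ρ, (Matrix.of fun a j => A (sel a) j).det ≠ 0 := by
  have hinj : Function.Injective (algebraMap L (FractionRing L)) :=
    IsFractionRing.injective L (FractionRing L)
  obtain ⟨sel, hsel⟩ := exists_sel_field (fun a j => algebraMap L (FractionRing L) (A a j)) (by
    intro c hc
    obtain ⟨b, hb⟩ := IsLocalization.exist_integer_multiples_of_finite (nonZeroDivisors L) c
    choose c' hc' using hb
    have h0 : c' = 0 := by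
      apply h
      intro a
      apply hinj
      rw [map_sum, map_zero]
      have : ∀ j, algebraMap L (FractionRing L) (A a j * c' j) =
          algebraMap L (FractionRing L) b * (algebraMap L (FractionRing L) (A a j) * c j) := by
        intro j
        rw [map_mul, hc' j, Algebra.smul_def]
        ring
      rw [Finset.sum_congr rfl (fun j _ => this j), ← Finset.mul_sum, hc a, mul_zero]
    funext j
    have hj := hc' j
    rw [h0, Pi.zero_apply, map_zero, Algebra.smul_def] at hj
    have hb0 : algebraMap L (FractionRing L) b ≠ 0 := by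
      intro hb0
      exact nonZeroDivisors.coe_ne_zero b (hinj (by rw [hb0, map_zero]))
    exact (mul_eq_zero.1 hj.symm).resolve_left hb0)
  refine ⟨sel, fun h0 => hsel ?_⟩
  have := (algebraMap L (FractionRing L)).map_det (Matrix.of fun a j => A (sel a) j)
  rw [h0, map_zero] at this
  exact this.symm

section iter

variable {K : Type} [CommRing K]

theorem iterD_cons (a : Fin 3) (l : List (Fin 3)) (F : MvPolynomial (Fin 3) K) :
    iterD (a :: l) F = pderiv a (iterD l F) := rfl

theorem iterD_sum {ι : Type} (s : Finset ι) (l : List (Fin 3)) (F : ι → MvPolynomial (Fin 3) K) :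
    iterD l (∑ i ∈ s, F i) = ∑ i ∈ s, iterD l (F i) := by
  induction l with
  | nil => rfl
  | cons a l ih => simp only [iterD_cons, ih, map_sum]

theorem iterD_C_mul (c : K) (l : List (Fin 3)) (F : MvPolynomial (Fin 3) K) :
    iterD l (C c * F) = C c * iterD l F := by
  induction l with
  | nil => rfl
  | cons a l ih => simp only [iterD_cons, ih, pderiv_C_mul]

theorem iterD_map {K' : Type} [CommRing K'] (φ : K →+* K') (l : List (Fin 3))
    (F : MvPolynomial (Fin 3) K) : iterD l (map φ F) = map φ (iterD l F) := by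
  induction l with
  | nil => rfl
  | cons a l ih => simp only [iterD_cons, ih, pderiv_map]

theorem iterD_hom {d : ℕ} (l : List (Fin 3)) {F : MvPolynomial (Fin 3) K}
    (hF : F.IsHomogeneous d) : (iterD l F).IsHomogeneous (d - l.length) := by
  induction l with
  | nil => exact hF
  | cons a l ih =>
    rw [iterD_cons, List.length_cons, ← Nat.sub_sub]
    exact ih.pderiv

end iter

/-- Monomials of degree `d`. -/
abbrev Mon (d : ℕ) : Type := ↥(Finset.finsuppAntidiag (Finset.univ : Finset (Fin 3)) d)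

theorem Mon.degree {d : ℕ} (M : Mon d) : M.1.degree = d := by
  rw [Finsupp.degree_eq_sum]
  exact (Finset.mem_finsuppAntidiag.1 M.2).1

/-- The entry of the interpolation matrix. -/
noncomputable def ent {r : ℕ} (i : Fin r) (l : List (Fin 3)) (M : Fin 3 →₀ ℕ) :
    MvPolynomial (Fin r × Fin 3) ℂ :=
  rename (fun a => (i, a)) (iterD l (monomial M (1 : ℂ)))

theorem eval_iterD {r d : ℕ} {L : Type} [CommRing L] [Algebra ℂ L] (v : Fin r → Fin 3 → L)
    (c : Mon d → L) (i : Fin r) (l : List (Fin 3)) :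
    eval (v i) (iterD l (∑ M : Mon d, monomial M.1 (c M))) =
      ∑ M : Mon d, aeval (fun a : Fin r × Fin 3 => v a.1 a.2) (ent i l M.1) * c M := by
  rw [iterD_sum, map_sum]
  refine Finset.sum_congr rfl fun M _ => ?_
  have h1 : (monomial M.1 (c M) : MvPolynomial (Fin 3) L) =
      C (c M) * map (algebraMap ℂ L) (monomial M.1 (1 : ℂ)) := by
    rw [map_monomial, map_one, C_mul_monomial, mul_one]
  rw [h1, iterD_C_mul, iterD_map, map_mul, eval_C, mul_comm, ent, aeval_rename, eval_map,
    aeval_def]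
  rfl

theorem sum_hom {d : ℕ} {L : Type} [CommRing L] (c : Mon d → L) :
    (∑ M : Mon d, monomial M.1 (c M) : MvPolynomial (Fin 3) L).IsHomogeneous d :=
  IsHomogeneous.sum _ _ _ fun M _ => isHomogeneous_monomial _ M.degree

theorem coeff_sum_mon {d : ℕ} {L : Type} [CommRing L] (c : Mon d → L) (M : Mon d) :
    coeff M.1 (∑ N : Mon d, monomial N.1 (c N) : MvPolynomial (Fin 3) L) = c M := by
  rw [coeff_sum, Finset.sum_eq_single M]
  · simp
  · intro N _ hN
    rw [coeff_monomial, if_neg]
    exact fun h => hN (Subtype.ext h)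
  · simp

theorem eq_sum_mon {d : ℕ} {L : Type} [CommRing L] {F : MvPolynomial (Fin 3) L}
    (hF : F.IsHomogeneous d) : F = ∑ N : Mon d, monomial N.1 (coeff N.1 F) := by
  ext M
  by_cases hM : M ∈ Finset.finsuppAntidiag (Finset.univ : Finset (Fin 3)) d
  · exact (coeff_sum_mon (fun N : Mon d => coeff N.1 F) ⟨M, hM⟩).symm
  · have hd : M.degree ≠ d := by
      intro hd
      apply hM
      rw [Finset.mem_finsuppAntidiag]
      exact ⟨by rw [← hd, Finsupp.degree_eq_sum], Finset.subset_univ _⟩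
    rw [hF.coeff_eq_zero hd, (sum_hom _).coeff_eq_zero hd]

theorem rename_wt {r n : ℕ} (i i' : Fin r) {φ : MvPolynomial (Fin 3) ℂ} (hφ : φ.IsHomogeneous n) :
    IsWeightedHomogeneous (fun a : Fin r × Fin 3 => if a.1 = i' then 1 else 0)
      (rename (fun a => (i, a)) φ) (if i = i' then n else 0) := by
  intro D hD
  obtain ⟨u, rfl, hu⟩ := coeff_rename_ne_zero _ _ _ hD
  have hdeg : u.degree = n := by
    by_contra hne
    exact hu (hφ.coeff_eq_zero hne)
  rw [Finsupp.weight_apply, Finsupp.sum_mapDomain_index (by simp) (fun _ _ _ => add_smul _ _ _)]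
  by_cases hi : i = i'
  · simp only [hi, if_true, smul_eq_mul, mul_one]
    exact hdeg
  · simp [hi]

theorem det_multi {r d : ℕ} (sel : Mon d → Fin r × List (Fin 3)) :
    IsMultiHomogeneous (Matrix.of fun a M : Mon d => ent (sel a).1 (sel a).2 M.1).det := by
  intro i'
  refine ⟨∑ a : Mon d, (if (sel a).1 = i' then d - (sel a).2.length else 0), ?_⟩
  rw [Matrix.det_apply']
  refine IsWeightedHomogeneous.sum _ _ _ fun σ _ => ?_
  have hC : (((Equiv.Perm.sign σ : ℤˣ) : ℤ) : MvPolynomial (Fin r × Fin 3) ℂ) =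
      C (((Equiv.Perm.sign σ : ℤˣ) : ℤ) : ℂ) := by simp
  rw [hC]
  apply IsWeightedHomogeneous.C_mul
  rw [← Equiv.sum_comp σ]
  refine IsWeightedHomogeneous.prod _ _ _ fun M _ => ?_
  exact rename_wt _ _ (iterD_hom _ (isHomogeneous_monomial _ M.degree))

theorem eval_scale {r : ℕ} {P : MvPolynomial (Fin r × Fin 3) ℂ} (hP : IsMultiHomogeneous P)
    (t : Fin r → ℂ) (ht : ∀ i, t i ≠ 0) (v : Fin r × Fin 3 → ℂ) (hv : eval v P ≠ 0) :
    eval (fun a => t a.1 * v a) P ≠ 0 := by
  choose k hk using hP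
  have : eval (fun a => t a.1 * v a) P = (∏ i, t i ^ k i) * eval v P := by
    rw [eval_eq', eval_eq', Finset.mul_sum]
    refine Finset.sum_congr rfl fun D hD => ?_
    have hw : ∀ i, ∑ b : Fin 3, D (i, b) = k i := by
      intro i
      rw [← hk i (mem_support_iff.1 hD), Finsupp.weight_eq_sum, Fintype.sum_prod_type,
        Finset.sum_eq_single i]
      · simp
      · intro j _ hj
        simp [hj]
      · simp
    have h2 : ∏ a : Fin r × Fin 3, t a.1 ^ D a = ∏ i, t i ^ k i := by
      rw [Fintype.prod_prod_type]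
      refine Finset.prod_congr rfl fun i _ => ?_
      rw [← hw i, ← Finset.prod_pow_eq_pow_sum]
    simp only [mul_pow, Finset.prod_mul_distrib, h2]
    ring
  rw [this]
  exact mul_ne_zero (Finset.prod_ne_zero_iff.2 fun i _ => pow_ne_zero _ (ht i)) hv

theorem exists_good {r : ℕ} {P : MvPolynomial (Fin r × Fin 3) ℂ} (hP : IsMultiHomogeneous P)
    (h0 : P ≠ 0) : ∃ p ∈ distinctTuples r, eval (fun a => (p a.1).rep a.2) P ≠ 0 := by
  classical
  set Q : MvPolynomial (Fin r × Fin 3) ℂ :=
    P * (∏ x ∈ (Finset.univ : Finset (Fin r)).offDiag,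
      (X (x.1, 0) * X (x.2, 1) - X (x.1, 1) * X (x.2, 0))) * ∏ i : Fin r, X (i, 2) with hQ
  have hQ0 : Q ≠ 0 := by
    refine mul_ne_zero (mul_ne_zero h0 (Finset.prod_ne_zero_iff.2 fun x hx => ?_))
      (Finset.prod_ne_zero_iff.2 fun i _ => X_ne_zero _)
    have hne : x.1 ≠ x.2 := (Finset.mem_offDiag.1 hx).2.2
    intro h
    have := congrArg (eval (fun a : Fin r × Fin 3 =>
      if a = (x.1, 0) ∨ a = (x.2, 1) then (1 : ℂ) else 0)) h
    simp [hne, hne.symm] at this
  obtain ⟨v, hv⟩ : ∃ v, eval v Q ≠ 0 := by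
    by_contra hcon
    push Not at hcon
    exact hQ0 (MvPolynomial.funext fun v => by rw [hcon v, map_zero])
  rw [hQ, map_mul, map_mul, map_prod, map_prod] at hv
  have hvP : eval v P ≠ 0 := left_ne_zero_of_mul (left_ne_zero_of_mul hv)
  have hv1 := Finset.prod_ne_zero_iff.1 (right_ne_zero_of_mul (left_ne_zero_of_mul hv))
  have hv2 := Finset.prod_ne_zero_iff.1 (right_ne_zero_of_mul hv)
  have hne : ∀ i, (fun b => v (i, b)) ≠ 0 := by
    intro i h
    have := hv2 i (Finset.mem_univ _)
    rw [eval_X] at this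
    exact this (congrFun h 2)
  refine ⟨fun i => Projectivization.mk ℂ (fun b => v (i, b)) (hne i), ?_, ?_⟩
  · intro i j hij
    by_contra hne'
    have := hv1 (i, j) (Finset.mem_offDiag.2 ⟨Finset.mem_univ _, Finset.mem_univ _, hne'⟩)
    obtain ⟨c, hc⟩ := (Projectivization.mk_eq_mk_iff' ℂ _ _ (hne i) (hne j)).1 hij
    have h0 := congrFun hc 0
    have h1 := congrFun hc 1
    simp only [Pi.smul_apply, smul_eq_mul] at h0 h1
    apply this
    simp only [map_sub, map_mul, eval_X]
    rw [← h0, ← h1]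
    ring
  · choose t ht using fun i => Projectivization.exists_smul_eq_mk_rep ℂ (fun b => v (i, b)) (hne i)
    have := eval_scale hP (fun i => (t i : ℂ)) (fun i => (t i).ne_zero) v hvP
    have heq : (fun a : Fin r × Fin 3 =>
        (Projectivization.mk ℂ (fun b => v (a.1, b)) (hne a.1)).rep a.2) =
        fun a => (t a.1 : ℂ) * v a := by
      funext a
      rw [← ht a.1]
      rfl
    rw [heq]
    exact this

theorem one_step {r d : ℕ} {m : Fin r → ℕ} {L : Type} [CommRing L] [IsDomain L] [Algebra ℂ L]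
    (p : Fin r → Fin 3 → L) (hp : ∀ F : MvPolynomial (Fin 3) L, F.IsHomogeneous d →
      (∀ (i : Fin r) (l : List (Fin 3)), l.length < m i → eval (p i) (iterD l F) = 0) → F = 0) :
    ∃ P : MvPolynomial (Fin r × Fin 3) ℂ, IsMultiHomogeneous P ∧ P ≠ 0 ∧
      ∀ q : Fin r → P2, eval (fun a => (q a.1).rep a.2) P ≠ 0 →
        ∀ F : MvPolynomial (Fin 3) ℂ, F.IsHomogeneous d → (∀ i, MultGE F (q i) (m i)) → F = 0 := by
  classical
  obtain ⟨sel, hsel⟩ := exists_sel (ι := Mon d)
    (ρ := {x : Fin r × List (Fin 3) // x.2.length < m x.1})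
    (fun x M => aeval (fun a : Fin r × Fin 3 => p a.1 a.2) (ent x.1.1 x.1.2 M.1)) (by
      intro c hc
      have h0 := hp _ (sum_hom c) (fun i l hl => by
        rw [eval_iterD]
        exact hc ⟨(i, l), hl⟩)
      funext M
      rw [← coeff_sum_mon c M, h0, coeff_zero, Pi.zero_apply])
  refine ⟨(Matrix.of fun a M : Mon d => ent (sel a).1.1 (sel a).1.2 M.1).det,
    det_multi (fun a => (sel a).1), ?_, ?_⟩
  · intro h0
    apply hsel
    have := (aeval (R := ℂ) (fun a : Fin r × Fin 3 => p a.1 a.2)).map_det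
      (Matrix.of fun a M : Mon d => ent (sel a).1.1 (sel a).1.2 M.1)
    rw [h0, map_zero] at this
    exact this.symm
  · intro q hq F hF hm
    have hdet : (Matrix.of fun a M : Mon d => aeval (R := ℂ)
        (fun a : Fin r × Fin 3 => (q a.1).rep a.2) (ent (sel a).1.1 (sel a).1.2 M.1)).det ≠ 0 := by
      have := (aeval (R := ℂ) (fun a : Fin r × Fin 3 => (q a.1).rep a.2)).map_det
        (Matrix.of fun a M : Mon d => ent (sel a).1.1 (sel a).1.2 M.1)
      intro h0
      apply hq
      rw [← coe_aeval_eq_eval]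
      exact this.trans h0
    have hc : (fun M : Mon d => coeff M.1 F) = 0 := by
      apply Matrix.eq_zero_of_mulVec_eq_zero hdet
      funext a
      have h1 := hm (sel a).1.1 (sel a).1.2 (sel a).2
      rw [eq_sum_mon hF] at h1
      have h2 := eval_iterD (fun i => (q i).rep) (fun M : Mon d => coeff M.1 F) (sel a).1.1
        (sel a).1.2
      exact h2.symm.trans h1
    rw [eq_sum_mon hF]
    refine Finset.sum_eq_zero fun M _ => ?_
    have := congrFun hc M
    simp only [Pi.zero_apply] at this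
    rw [this, monomial_zero]

end Tr

theorem transfer (r : ℕ) (bad : ℕ → (Fin r → ℕ) → Prop)
    (h : ∀ d m, bad d m → ∃ (L : Type) (_ : CommRing L) (_ : IsDomain L) (_ : Algebra ℂ L)
      (p : Fin r → Fin 3 → L), ∀ F : MvPolynomial (Fin 3) L, F.IsHomogeneous d →
        (∀ (i : Fin r) (l : List (Fin 3)), l.length < m i → eval (p i) (iterD l F) = 0) → F = 0) :
    ∃ Z : ℕ → Set (Fin r → P2), (∀ n, IsZariskiClosedIn r (Z n) ∧ Z n ≠ distinctTuples r) ∧
      ∀ p ∈ distinctTuples r, (∀ n, p ∉ Z n) → ∀ d m, bad d m →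
        ∀ F : MvPolynomial (Fin 3) ℂ, F.IsHomogeneous d → (∀ i, MultGE F (p i) (m i)) → F = 0 := by
  have key : ∀ x : ℕ × (Fin r → ℕ), ∃ P : MvPolynomial (Fin r × Fin 3) ℂ,
      IsMultiHomogeneous P ∧ P ≠ 0 ∧ (bad x.1 x.2 →
      ∀ q : Fin r → P2, eval (fun a => (q a.1).rep a.2) P ≠ 0 →
        ∀ F : MvPolynomial (Fin 3) ℂ, F.IsHomogeneous x.1 →
          (∀ i, MultGE F (q i) (x.2 i)) → F = 0) := by
    intro x
    by_cases hb : bad x.1 x.2
    · obtain ⟨L, _, _, _, p, hp⟩ := h x.1 x.2 hb
      obtain ⟨P, h1, h2, h3⟩ := Tr.one_step p hp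
      exact ⟨P, h1, h2, fun _ => h3⟩
    · exact ⟨1, fun i => ⟨0, isWeightedHomogeneous_one _ _⟩, one_ne_zero, fun hb' => (hb hb').elim⟩
  choose P hP1 hP2 hP3 using key
  obtain ⟨e, he⟩ := exists_surjective_nat (ℕ × (Fin r → ℕ))
  refine ⟨fun n => {p | p ∈ distinctTuples r ∧ ∀ Q ∈ ({P (e n)} : Set _),
    eval (fun a => (p a.1).rep a.2) Q = 0}, fun n => ⟨⟨{P (e n)}, ?_, rfl⟩, ?_⟩, ?_⟩
  · intro Q hQ
    rw [Set.mem_singleton_iff.1 hQ]
    exact hP1 _
  · intro heq
    obtain ⟨p, hp, hp0⟩ := Tr.exists_good (hP1 (e n)) (hP2 (e n))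
    rw [← heq] at hp
    exact hp0 (hp.2 _ rfl)
  · intro p hp hZ d m hb
    obtain ⟨n, hn⟩ := he (d, m)
    have hne : eval (fun a => (p a.1).rep a.2) (P (d, m)) ≠ 0 := by
      intro h0
      apply hZ n
      refine ⟨hp, fun Q hQ => ?_⟩
      rw [Set.mem_singleton_iff.1 hQ, hn]
      exact h0
    exact hP3 (d, m) hb p hne

end Vale.Agent.P279
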