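import Vale.Agent.P279.Theta
import Vale.Agent.P279.SDeg
import Vale.Agent.P279.Core
import Vale.Agent.P279.Transfer

/-!
Nagata's inequality at a special configuration over `ℂ((t))[s]`.
-/

namespace Vale.Agent.P279

open MvPolynomial

theorem exists_points (r : ℕ) (u : LR) (hu : u ≠ 0) :
    ∃ (x : Fin r → ℂ) (hx : ∀ i, x i ≠ 0), Function.Injective x ∧
      ∀ i, hmap (evA (x i) (hx i)) u ≠ 0 := by
  have h1 : u.coeff u.order ≠ 0 := fun h => hu (HahnSeries.coeff_order_eq_zero.1 h)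
  obtain ⟨n, f, hf⟩ := LaurentPolynomial.exists_T_pow (u.coeff u.order)
  have hf0 : f ≠ 0 := by
    intro h
    rw [h, map_zero, eq_comm, (LaurentPolynomial.isUnit_T _).mul_left_eq_zero] at hf
    exact h1 hf
  have hX : f * Polynomial.X ≠ 0 := mul_ne_zero hf0 Polynomial.X_ne_zero
  have hinf : ({x | Polynomial.IsRoot (f * Polynomial.X) x}ᶜ : Set ℂ).Infinite :=
    (Polynomial.finite_setOfPred_isRoot hX).infinite_compl
  let e := hinf.natEmbedding
  have he : ∀ j, f.eval (e j : ℂ) ≠ 0 ∧ (e j : ℂ) ≠ 0 := by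
    intro j
    have := (e j).2
    simp only [Set.mem_compl_iff, Set.mem_ofPred_eq, Polynomial.IsRoot, Polynomial.eval_mul,
      Polynomial.eval_X, mul_eq_zero, not_or] at this
    exact this
  refine ⟨fun i => e i, fun i => (he i).2, ?_, ?_⟩
  · intro i j h
    exact Fin.val_injective (e.injective (Subtype.val_injective h))
  · intro i h
    have h2 := congrArg (fun z : LK => z.coeff u.order) h
    simp only [coeff_hmap, HahnSeries.coeff_zero] at h2
    have h3 := congrArg (evA (e i) (he i).2) hf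
    rw [map_mul, h2, zero_mul, evA, LaurentPolynomial.eval₂_toLaurent] at h3
    exact (he i).1 h3

theorem special (r d : ℕ) (hr : 10 ≤ r) (hd : 1 ≤ d) (m : Fin r → ℕ)
    (hm : (d : ℝ) * Real.sqrt r ≤ ∑ i, (m i : ℝ)) :
    ∃ (L : Type) (_ : CommRing L) (_ : IsDomain L) (_ : Algebra ℂ L)
      (p : Fin r → Fin 3 → L), ∀ F : MvPolynomial (Fin 3) L, F.IsHomogeneous d →
        (∀ (i : Fin r) (l : List (Fin 3)), l.length < m i → eval (p i) (iterD l F) = 0) →
        F = 0 := by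
  classical
  obtain ⟨p, q, hq, hcore⟩ := core r d hr hd m hm
  obtain ⟨θ, G, hG, hG0, hGθ, hinj, hrel⟩ := theta_main p q hq
  have h3 : (3 : LK) ≠ 0 := by
    intro h
    have := congrArg (fun z : LK => z.coeff 0) h
    rw [← HahnSeries.single_zero_ofNat] at this
    simp at this
  obtain ⟨hdec, hu⟩ := decomp h3 iota θ G hG hG0 hGθ hinj
  obtain ⟨x, hx, hxi, hxu⟩ := exists_points r _ hu
  obtain ⟨P, hP⟩ := sdeg iota (hadd eulA) isDer_eulA.hadd hadd_iota θ G hGθ hdec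
    (fun i => hmap (evA (x i) (hx i))) (fun i => ev_iota _ _) hxu
  refine ⟨Polynomial LK, inferInstance, inferInstance, inferInstance, P, fun F hF hFm => ?_⟩
  by_contra hF0
  obtain ⟨H, h1, h2, ⟨j0, hj0⟩, h4⟩ := hP d m F hF hF0 hFm
  set φ : ℕ → LR := fun j => eval₂ iota θ (H j) with hφ
  have hz : ∀ j, d < 3 * j → φ j = 0 := fun j hj => by simp [hφ, h2 j hj]
  obtain ⟨j1, hj1, hmin⟩ := ((Finset.range (d + 1)).filter fun j => φ j ≠ 0).exists_min_image
    (fun j => (φ j).order) ⟨j0, Finset.mem_filter.2 ⟨Finset.mem_range.2 (by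
      by_contra h
      exact hj0 (hz j0 (by omega))), hj0⟩⟩
  set n0 := (φ j1).order with hn0
  have hlow : ∀ j, Low n0 (φ j) := by
    intro j n hn
    by_cases h : φ j = 0
    · rw [h, HahnSeries.coeff_zero]
    · refine HahnSeries.coeff_eq_zero_of_lt_order (hn.trans_le (hmin j ?_))
      refine Finset.mem_filter.2 ⟨Finset.mem_range.2 ?_, h⟩
      by_contra h'
      exact h (hz j (by omega))
  have hcf : ∀ j k n, cf (φ j) (k, n) ≠ 0 → n0 ≤ n := by
    intro j k n h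
    by_contra h'
    apply h
    rw [cf, hlow j n (not_le.1 h')]
    rfl
  have key := hcore x hxi hx (fun j => ((φ j).coeff n0).coeff) ?_ ?_ j1
  · rw [AddMonoidAlgebra.coeff_eq_zero, HahnSeries.coeff_order_eq_zero] at key
    exact (Finset.mem_filter.1 hj1).2 key
  · intro j k hk
    have hk' : cf (φ j) (k, n0) ≠ 0 := hk
    have hj : 3 * j ≤ d := by
      by_contra h
      rw [hz j (by omega)] at hk'
      exact hk' rfl
    have hR := Rel.eval hrel (h1 j)
    have e1 : ((d - 3 * j : ℕ) : ℤ) = (d : ℤ) - 3 * j := by push_cast [hj]; ring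
    have a1 := hR k n0
    have a2 := hR (k - 3 * ((d : ℤ) - 3 * j))
      (n0 - 6 * q * (k - 3 * ((d : ℤ) - 3 * j)) + 6 * p * ((d : ℤ) - 3 * j))
    rw [Prod.smul_fst, Prod.smul_snd, nsmul_eq_mul, nsmul_eq_mul, e1] at a1 a2
    simp only at a1 a2
    have b1 := hcf j _ _ (a1 ▸ hk')
    have e2 : ((k - 3 * ((d : ℤ) - 3 * j) + ((d : ℤ) - 3 * j) * 3,
        n0 - 6 * q * (k - 3 * ((d : ℤ) - 3 * j)) + 6 * p * ((d : ℤ) - 3 * j) +
          6 * q * (k - 3 * ((d : ℤ) - 3 * j)) + ((d : ℤ) - 3 * j) * (-6 * p)) : ℤ × ℤ) =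
        (k, n0) := by
      ext <;> simp only <;> ring
    rw [e2] at a2
    have b2 := hcf j _ _ (a2 ▸ hk')
    refine ⟨hj, by nlinarith, by nlinarith⟩
  · intro i a b hab
    have := congrArg (fun z : LK => z.coeff n0) (h4 i a b hab)
    simp only [HahnSeries.coeff_sum, HahnSeries.coeff_zero] at this
    rw [← this]
    refine Finset.sum_congr rfl fun j _ => ?_
    rw [← evA_iter (x i) (hx i), ← coeff_iter_hadd, ← coeff_hmap, ← Nat.cast_pow, ← Nat.cast_pow,
      ← nsmul_eq_mul, ← nsmul_eq_mul, HahnSeries.coeff_nsmul]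
    rfl

theorem nagata (r : ℕ) (hr : 10 ≤ r) :
    ∃ Z : ℕ → Set (Fin r → P2), (∀ n, IsZariskiClosedIn r (Z n) ∧ Z n ≠ distinctTuples r) ∧
      ∀ p ∈ distinctTuples r, (∀ n, p ∉ Z n) → ∀ d : ℕ, 1 ≤ d →
        ∀ F : MvPolynomial (Fin 3) ℂ, F ≠ 0 → F.IsHomogeneous d → ∀ m : Fin r → ℕ,
          (∀ i, MultGE F (p i) (m i)) → ∑ i, (m i : ℝ) < d * Real.sqrt r := by
  obtain ⟨Z, h1, h2⟩ := transfer r (fun d m => 1 ≤ d ∧ (d : ℝ) * Real.sqrt r ≤ ∑ i, (m i : ℝ))
    fun d m h => special r d hr h.1 m h.2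
  refine ⟨Z, h1, fun p hp hZ d hd F hF0 hF m hm => ?_⟩
  by_contra h
  exact hF0 (h2 p hp hZ d m ⟨hd, not_lt.1 h⟩ F hF hm)

end Vale.Agent.P279
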