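import Vale.Agent.P279.Hahn
import Vale.Agent.P279.Decomp

/-!
Theta series of a Tate cubic.
-/

namespace Vale.Agent.P279

open MvPolynomial

/-- The quadratic exponent of the theta series. -/
def NN (k : ℤ) : ℤ := k ^ 2 - 3 * k + if k % 3 = 0 then 0 else 2

/-- Residues of the exponents of the three theta series. -/
def res : Fin 3 → ℤ := ![1, 0, 2]

theorem NN_add_three (k : ℤ) : NN (k + 3) = NN k + 6 * k := by
  have : (k + 3) % 3 = k % 3 := by omega
  simp only [NN, this]
  ring

theorem NN_ge (k : ℤ) : k ^ 2 - 3 * k ≤ NN k := by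
  unfold NN
  split_ifs <;> omega

theorem NN_nonneg (k : ℤ) : 0 ≤ NN k := by
  unfold NN
  split_ifs with h
  · rcases le_or_gt k 0 with h1 | h1
    · nlinarith
    · have : 3 ≤ k := by omega
      nlinarith
  · rcases le_or_gt k 1 with h1 | h1
    · nlinarith
    · have : 2 ≤ k := by omega
      nlinarith

theorem NN_eq_zero (k : ℤ) : NN k = 0 ↔ 0 ≤ k ∧ k ≤ 3 := by
  constructor
  · intro h
    have := NN_ge k
    constructor <;> nlinarith
  · rintro ⟨h1, h2⟩
    interval_cases k <;> rfl

theorem exists_theta (q : ℕ) (hq : 0 < q) (c : ℤ) : ∃ θ : Fin 3 → LR, ∀ e k n,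
    cf (θ e) (k, n) = if k % 3 = res e ∧ n = q * NN k + c * k then 1 else 0 := by
  have hlow : ∀ k : ℤ, |k| * (|k| - 3 - |c|) ≤ q * NN k + c * k := by
    intro k
    have h1 := NN_ge k
    have h2 := NN_nonneg k
    have h3 : (1 : ℤ) ≤ q := by exact_mod_cast hq
    have h4 : -(|c| * |k|) ≤ c * k := by rw [← abs_mul]; exact neg_abs_le _
    have h5 : |k| * |k| = k ^ 2 := by rw [abs_mul_abs_self]; ring
    have h6 := le_abs_self k
    have h7 := neg_abs_le k
    have h8 := NN_ge (-k)
    have h9 : NN k ≤ q * NN k := by nlinarith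
    rcases le_total 0 k with h | h
    · nlinarith
    · nlinarith
  have : ∀ e : Fin 3, ∃ f : LR, ∀ p, cf f p =
      if p.1 % 3 = res e ∧ p.2 = q * NN p.1 + c * p.1 then 1 else 0 := by
    intro e
    refine exists_of_coeff _ (fun n => ?_) ⟨-(3 + |c|) ^ 2, fun k n h => ?_⟩
    · refine (Set.finite_Icc (-(|n| + |c| + 4)) (|n| + |c| + 4)).subset fun k hk => ?_
      have h1 : n = q * NN k + c * k := by
        by_contra h
        exact hk (if_neg fun h' => h h'.2)
      rw [Set.mem_Icc, ← abs_le]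
      by_contra h
      have h2 := hlow k
      have h3 := le_abs_self n
      have h4 := abs_nonneg n
      have h5 := abs_nonneg c
      nlinarith
    · have h1 : n = q * NN k + c * k := by
        by_contra h0
        exact h (if_neg fun h' => h0 h'.2)
      have h2 := hlow k
      have h4 := abs_nonneg k
      have h5 := abs_nonneg c
      nlinarith [sq_nonneg (|k| - (3 + |c|))]
  choose θ hθ using this
  exact ⟨θ, fun e k n => hθ e (k, n)⟩

theorem nodal_inj (q : ℕ) (hq : 0 < q) (θ : Fin 3 → LR)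
    (hθ : ∀ e k n, cf (θ e) (k, n) = if k % 3 = res e ∧ n = q * NN k + 0 * k then 1 else 0)
    (d : ℕ) (H : MvPolynomial (Fin 3) LK) (hH : H.IsHomogeneous d)
    (hs : ∀ M ∈ H.support, M 0 ≤ 2) (h0 : eval₂ iota θ H = 0) : H = 0 := by
  have hq' : (0 : ℤ) < q := by exact_mod_cast hq
  have hlow : ∀ e, Low 0 (θ e) := by
    intro e m hm
    ext k
    have := hθ e k m
    rw [if_neg] at this
    · exact this
    · rintro ⟨_, h⟩
      have := NN_nonneg k
      nlinarith
  have h1 : ∀ e k, ((θ e).coeff 0).coeff k =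
      if k % 3 = res e ∧ 0 ≤ k ∧ k ≤ 3 then 1 else 0 := by
    intro e k
    refine (hθ e k 0).trans (if_congr (and_congr_right fun _ => ?_) rfl rfl)
    rw [zero_mul, add_zero, eq_comm, mul_eq_zero, ← NN_eq_zero]
    exact ⟨fun h => h.resolve_left hq'.ne', Or.inr⟩
  have hlead0 : (θ 0).coeff 0 = Polynomial.toLaurent Polynomial.X := by
    ext k
    rw [h1, Polynomial.toLaurent_X, LaurentPolynomial.T_apply]
    have : res 0 = 1 := rfl
    exact if_congr (by omega) rfl rfl
  have hlead1 : (θ 1).coeff 0 = Polynomial.toLaurent (1 + Polynomial.X ^ 3) := by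
    ext k
    rw [h1, map_add, map_one, Polynomial.toLaurent_X_pow, AddMonoidAlgebra.coeff_add,
      Finsupp.add_apply, ← LaurentPolynomial.T_zero, LaurentPolynomial.T_apply,
      LaurentPolynomial.T_apply]
    have : res 1 = 0 := rfl
    split_ifs <;> first | (exfalso; omega) | simp
  have hlead2 : (θ 2).coeff 0 = Polynomial.toLaurent (Polynomial.X ^ 2) := by
    ext k
    rw [h1, Polynomial.toLaurent_X_pow, LaurentPolynomial.T_apply]
    have : res 2 = 2 := rfl
    exact if_congr (by omega) rfl rfl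
  by_contra hne
  obtain ⟨M0, hM0, hmin⟩ := H.support.exists_min_image (fun M => (H.coeff M).order)
    (support_nonempty.2 hne)
  set n0 := (H.coeff M0).order with hn0
  have h7 : (eval₂ iota θ H).coeff n0 = Polynomial.toLaurent (∑ M ∈ H.support,
      Polynomial.C ((H.coeff M).coeff n0) * (Polynomial.X ^ M 0 * (1 + Polynomial.X ^ 3) ^ M 1 *
        (Polynomial.X ^ 2) ^ M 2)) := by
    rw [eval₂_eq', HahnSeries.coeff_sum, map_sum]
    refine Finset.sum_congr rfl fun M hM => ?_
    have h2 : Low n0 (iota (H.coeff M)) := by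
      intro m hm
      rw [iota, coeff_hmap, HahnSeries.coeff_eq_zero_of_lt_order (hm.trans_le (hmin M hM)),
        map_zero]
    have h3 := ((hlow 0).pow (M 0)).1.mul ((hlow 1).pow (M 1)).1
    rw [add_zero] at h3
    have h4 := h3.1.mul ((hlow 2).pow (M 2)).1
    rw [add_zero] at h4
    have h5 := (h2.mul h4.1).2
    rw [add_zero] at h5
    rw [Fin.prod_univ_three, h5, h4.2, h3.2, ((hlow 0).pow _).2, ((hlow 1).pow _).2,
      ((hlow 2).pow _).2, hlead0, hlead1, hlead2, iota, coeff_hmap]
    simp only [map_mul, map_pow, Polynomial.toLaurent_C]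
  rw [h0, HahnSeries.coeff_zero, eq_comm, Polynomial.toLaurent_eq_zero] at h7
  have h6 := nodal_indep d H.support (fun M => (H.coeff M).coeff n0)
    (fun M hM => ⟨homog_degree hH hM, hs M hM⟩) h7 M0 hM0
  exact (mem_support_iff.1 hM0) (HahnSeries.coeff_order_eq_zero.1 h6)

/-- The coefficient of `x ^ k`, a Laurent series in `t`. -/
noncomputable def col (k : ℤ) : LR →+ LK :=
  hadd (AddMonoidHom.mk' (fun p : LA => p.coeff k) fun _ _ => rfl)

theorem coeff_col (k : ℤ) (f : LR) (n : ℤ) : (col k f).coeff n = cf f (k, n) := rfl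

theorem col_iota_mul (k : ℤ) (a : LK) (f : LR) : col k (iota a * f) = a * col k f := by
  ext n
  have h1 : (iota a).support ⊆ a.support := by
    intro m hm
    rw [HahnSeries.mem_support] at hm ⊢
    intro h
    rw [iota, coeff_hmap, h, map_zero] at hm
    exact hm rfl
  have h2 : (col k f).support ⊆ f.support := by
    intro m hm
    rw [HahnSeries.mem_support] at hm ⊢
    intro h
    apply hm
    rw [coeff_col, cf, h]
    rfl
  rw [coeff_col, cf, HahnSeries.coeff_mul_left' a.isPWO_support h1,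
    HahnSeries.coeff_mul_right' f.isPWO_support h2, AddMonoidAlgebra.coeff_sum,
    Finsupp.finsetSum_apply]
  refine Finset.sum_congr rfl fun ij _ => ?_
  rw [iota, coeff_hmap, ← LaurentPolynomial.smul_eq_C_mul, coeff_col]
  rfl

theorem exists_cubic (b a : ℤ) (θ : Fin 3 → LR) (hθ : ∀ e, Rel b (3, a) (θ e) (θ e)) :
    ∃ G : MvPolynomial (Fin 3) LK, G.IsHomogeneous 3 ∧ G ≠ 0 ∧ eval₂ iota θ G = 0 := by
  classical
  let σ := {v : Fin 3 → Fin 4 // (v 0 : ℕ) + v 1 + v 2 = 3}
  let mon : σ → (Fin 3 →₀ ℕ) := fun v => Finsupp.equivFunOnFinite.symm fun i => (v.1 i : ℕ)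
  have hinj : Function.Injective mon := by
    intro v w h
    have := Finsupp.equivFunOnFinite.symm.injective h
    ext i
    exact congrFun this i
  have hcard : Fintype.card σ = 10 := by decide
  let L : (σ → LK) →ₗ[LK] (Fin 9 → LK) :=
    Matrix.toLin' (Matrix.of fun (k : Fin 9) (v : σ) =>
      col ((k : ℕ) : ℤ) (eval₂ iota θ (monomial (mon v) 1)))
  have hker : LinearMap.ker L ≠ ⊥ := LinearMap.ker_ne_bot_of_finrank_lt (by simp [hcard])
  obtain ⟨w, hw, hw0⟩ := Submodule.exists_mem_ne_zero_of_ne_bot hker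
  have hhom : (∑ v : σ, monomial (mon v) (w v)).IsHomogeneous 3 := by
    refine IsHomogeneous.sum _ _ _ fun v _ => isHomogeneous_monomial _ ?_
    rw [degree_three]
    exact v.2
  refine ⟨∑ v : σ, monomial (mon v) (w v), hhom, ?_, ?_⟩
  · intro h
    apply hw0
    ext1 v
    have := congrArg (coeff (mon v)) h
    rw [coeff_sum, Finset.sum_eq_single v] at this
    · simpa using this
    · intro u _ hu
      rw [coeff_monomial, if_neg (hinj.ne hu)]
    · simp
  · have hrel := Rel.eval hθ hhom
    set f := eval₂ iota θ (∑ v : σ, monomial (mon v) (w v)) with hf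
    have h9 : ∀ k : Fin 9, col ((k : ℕ) : ℤ) f = 0 := by
      intro k
      have := congrFun (LinearMap.mem_ker.1 hw) k
      simp only [L, Matrix.toLin'_apply, Matrix.mulVec, dotProduct, Matrix.of_apply,
        Pi.zero_apply] at this
      rw [← this, hf, eval₂_sum, map_sum]
      refine Finset.sum_congr rfl fun v _ => ?_
      rw [mul_comm, ← col_iota_mul, eval₂_monomial, eval₂_monomial, map_one, one_mul]
    have hstep : ∀ k : ℤ, (∀ n, cf f (k, n) = 0) ↔ ∀ n, cf f (k + 9, n) = 0 := by
      intro k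
      constructor
      · intro h n
        have := hrel k (n - b * k - 3 * a)
        rw [h] at this
        rw [← this]
        congr 2
        rw [Prod.smul_snd, nsmul_eq_mul, Nat.cast_ofNat]
        ring
      · intro h n
        rw [← hrel k n]
        exact h _
    have hall : ∀ (l : ℤ) (k : Fin 9) (n : ℤ), cf f (((k : ℕ) : ℤ) + 9 * l, n) = 0 := by
      intro l k
      induction l using Int.induction_on with
      | zero =>
        intro n
        rw [mul_zero, add_zero, ← coeff_col, h9]
        rfl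
      | succ l ih =>
        have := (hstep _).1 ih
        rwa [add_assoc, ← mul_add_one] at this
      | pred l ih =>
        refine (hstep _).2 ?_
        have e : ((k : ℕ) : ℤ) + 9 * (-(l : ℤ) - 1) + 9 = ((k : ℕ) : ℤ) + 9 * -(l : ℤ) := by ring
        rw [e]
        exact ih
    refine cf_ext fun p => ?_
    have := hall (p.1 / 9) ⟨(p.1 % 9).toNat, by omega⟩ p.2
    have e : (((p.1 % 9).toNat : ℕ) : ℤ) + 9 * (p.1 / 9) = p.1 := by omega
    rw [e] at this
    exact this

theorem theta_main (p q : ℕ) (hq : 0 < q) :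
    ∃ (θ : Fin 3 → LR) (G : MvPolynomial (Fin 3) LK), G.IsHomogeneous 3 ∧ G ≠ 0 ∧
      eval₂ iota θ G = 0 ∧
      (∀ (d : ℕ) (H : MvPolynomial (Fin 3) LK), H.IsHomogeneous d →
        (∀ M ∈ H.support, M 0 ≤ 2) → eval₂ iota θ H = 0 → H = 0) ∧
      ∀ e, Rel (6 * q) (3, -6 * p) (θ e) (θ e) := by
  obtain ⟨θ, hθ⟩ := exists_theta q hq (-2 * p)
  obtain ⟨θ', hθ'⟩ := exists_theta q hq 0
  have h1 : ∀ e, Rel (6 * q) (3, -6 * p) (θ e) (θ e) := by
    intro e k n
    rw [hθ, hθ]
    simp only
    rw [NN_add_three]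
    refine if_congr (and_congr (by omega) ?_) rfl rfl
    constructor <;> intro h <;> linear_combination h
  have h2 : ∀ e, Rel (-2 * p) 0 (θ' e) (θ e) := by
    intro e k n
    rw [hθ, hθ']
    simp only [Prod.fst_zero, Prod.snd_zero, add_zero]
    refine if_congr (and_congr Iff.rfl ?_) rfl rfl
    constructor <;> intro h <;> linear_combination h
  obtain ⟨G, hG, hG0, hGθ⟩ := exists_cubic _ _ θ h1
  refine ⟨θ, G, hG, hG0, hGθ, fun d H hH hs h0 => ?_, h1⟩
  exact nodal_inj q hq θ' hθ' d H hH hs ((Rel.eval h2 hH).eq_zero_iff.2 h0)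

end Vale.Agent.P279
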