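import Vale.Agent.P279.Defs

/-!
Order of vanishing measured by two derivations.
-/

namespace Vale.Agent.P279

open MvPolynomial

/-- Leibniz rule. -/
def IsDer {T : Type} [CommRing T] (D : T →+ T) : Prop :=
  ∀ x y, D (x * y) = x * D y + y * D x

theorem IsDer.map_one {T : Type} [CommRing T] {D : T →+ T} (h : IsDer D) : D 1 = 0 := by
  have := h 1 1
  simpa using this

theorem IsDer.map_natCast {T : Type} [CommRing T] {D : T →+ T} (h : IsDer D) (n : ℕ) :
    D (n : T) = 0 := by
  induction n with
  | zero => simp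
  | succ n ih => rw [Nat.cast_succ, map_add, ih, h.map_one, add_zero]

theorem IsDer.map_natCast_pow {T : Type} [CommRing T] {D : T →+ T} (h : IsDer D) (n b : ℕ) :
    D ((n : T) ^ b) = 0 := by
  rw [← Nat.cast_pow]; exact h.map_natCast _

theorem IsDer.pow_eig {T : Type} [CommRing T] {D : T →+ T} (h : IsDer D) {c e w : T}
    (hw : c * D w = e * w) (j : ℕ) : c * D (w ^ j) = (j : T) * e * w ^ j := by
  induction j with
  | zero => simp [h.map_one]
  | succ j ih =>
    rw [pow_succ, h]
    push_cast
    linear_combination (w ^ j) * hw + w * ih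

/-- Vanishing to order `n` at the point `ev`. -/
def Van {T L : Type} [CommRing T] [CommRing L] (ev : T →+* L) (D E : T →+ T) : ℕ → T → Prop
  | 0, _ => True
  | n + 1, z => ev z = 0 ∧ Van ev D E n (D z) ∧ Van ev D E n (E z)

section
variable {T L : Type} [CommRing T] [CommRing L] {ev : T →+* L} {D E : T →+ T}

theorem Van.mono : ∀ {n : ℕ} {z : T}, Van ev D E (n + 1) z → Van ev D E n z
  | 0, _, _ => trivial
  | _ + 1, _, h => ⟨h.1, Van.mono h.2.1, Van.mono h.2.2⟩

theorem Van.zero : ∀ n : ℕ, Van ev D E n 0
  | 0 => trivial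
  | n + 1 => ⟨map_zero _, by rw [map_zero]; exact Van.zero n, by rw [map_zero]; exact Van.zero n⟩

theorem Van.add : ∀ {n : ℕ} {z w : T}, Van ev D E n z → Van ev D E n w → Van ev D E n (z + w)
  | 0, _, _, _, _ => trivial
  | _ + 1, _, _, h, h' => ⟨by rw [map_add, h.1, h'.1, add_zero],
      by rw [map_add]; exact Van.add h.2.1 h'.2.1, by rw [map_add]; exact Van.add h.2.2 h'.2.2⟩

theorem Van.mul (hD : IsDer D) (hE : IsDer E) :
    ∀ {n : ℕ} {z : T} (w : T), Van ev D E n z → Van ev D E n (w * z)
  | 0, _, _, _ => trivial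
  | n + 1, z, w, h => by
    refine ⟨by rw [map_mul, h.1, mul_zero], ?_, ?_⟩
    · rw [hD, mul_comm z]
      exact (Van.mul hD hE w h.2.1).add (Van.mul hD hE _ h.mono)
    · rw [hE, mul_comm z]
      exact (Van.mul hD hE w h.2.2).add (Van.mul hD hE _ h.mono)

theorem Van.sum {ι : Type} {n : ℕ} (s : Finset ι) (f : ι → T) (h : ∀ i ∈ s, Van ev D E n (f i)) :
    Van ev D E n (∑ i ∈ s, f i) :=
  Finset.sum_induction f (Van ev D E n) (fun _ _ => Van.add) (Van.zero n) h

theorem Van.cancel [IsDomain L] (hD : IsDer D) (hE : IsDer E) {w : T} (hw : ev w ≠ 0) :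
    ∀ {n : ℕ} {z : T}, Van ev D E n (w * z) → Van ev D E n z
  | 0, _, _ => trivial
  | n + 1, z, h => by
    have hz : Van ev D E n z := Van.cancel hD hE hw h.mono
    refine ⟨?_, ?_, ?_⟩
    · have := h.1
      rw [map_mul] at this
      exact (mul_eq_zero.1 this).resolve_left hw
    · apply Van.cancel hD hE hw
      have h1 := h.2.1.add (Van.mul hD hE (-D w) hz)
      rw [hD] at h1
      have e : w * D z + z * D w + -D w * z = w * D z := by ring
      rwa [e] at h1
    · apply Van.cancel hD hE hw
      have h1 := h.2.2.add (Van.mul hD hE (-E w) hz)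
      rw [hE] at h1
      have e : w * E z + z * E w + -E w * z = w * E z := by ring
      rwa [e] at h1

theorem IsDer.chain (hD : IsDer D) (φ : L →+* T) (hφ : ∀ a, D (φ a) = 0) (P : Fin 3 → T)
    (F : MvPolynomial (Fin 3) L) :
    D (eval₂ φ P F) = ∑ a, D (P a) * eval₂ φ P (pderiv a F) := by
  induction F using MvPolynomial.induction_on with
  | C a => simp [hφ]
  | add p q hp hq => simp [hp, hq, mul_add, Finset.sum_add_distrib]
  | mul_X p i hp =>
    rw [eval₂_mul, eval₂_X, hD, hp]
    simp only [Derivation.leibniz, pderiv_X, smul_eq_mul, eval₂_add, eval₂_mul, eval₂_X, mul_add,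
      Finset.sum_add_distrib, Finset.mul_sum]
    congr 1
    · rw [Finset.sum_eq_single i]
      · simp [mul_comm]
      · intro b _ hb
        simp [Pi.single_eq_of_ne hb.symm]
      · simp
    · exact Finset.sum_congr rfl fun a _ => by ring

theorem van_of_mult (hD : IsDer D) (hE : IsDer E) (φ : L →+* T) (hφD : ∀ a, D (φ a) = 0)
    (hφE : ∀ a, E (φ a) = 0) (hev : ∀ a, ev (φ a) = a) (P : Fin 3 → T) :
    ∀ (m : ℕ) (F : MvPolynomial (Fin 3) L),
      (∀ l : List (Fin 3), l.length < m → eval (fun a => ev (P a)) (iterD l F) = 0) →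
      Van ev D E m (eval₂ φ P F)
  | 0, _, _ => trivial
  | m + 1, F, h => by
    have key : ∀ a, Van ev D E m (eval₂ φ P (pderiv a F)) := fun a =>
      van_of_mult hD hE φ hφD hφE hev P m _ fun l hl => by
        have := h (l ++ [a]) (by simpa using hl)
        simpa [iterD, List.foldr_append] using this
    refine ⟨?_, ?_, ?_⟩
    · have := h [] (by simp)
      rw [eval₂_comp_left]
      have e : ev.comp φ = RingHom.id L := RingHom.ext hev
      rw [e]
      exact this
    · rw [hD.chain φ hφD]
      exact Van.sum _ _ fun a _ => Van.mul hD hE _ (key a)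
    · rw [hE.chain φ hφE]
      exact Van.sum _ _ fun a _ => Van.mul hD hE _ (key a)

end

/-- Coefficientwise lift of an additive map to polynomials. -/
noncomputable def liftD {T : Type} [CommRing T] (D : T →+ T) : Polynomial T →+ Polynomial T :=
  AddMonoidHom.mk' (fun p => p.sum fun n a => Polynomial.monomial n (D a)) fun p q =>
    Polynomial.sum_add_index p q _ (by simp) (by simp)

theorem coeff_liftD {T : Type} [CommRing T] (D : T →+ T) (p : Polynomial T) (n : ℕ) :
    (liftD D p).coeff n = D (p.coeff n) := by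
  simp only [liftD, AddMonoidHom.mk'_apply, Polynomial.coeff_sum, Polynomial.coeff_monomial]
  rw [Polynomial.sum, Finset.sum_eq_single n]
  · simp
  · intro b _ hb
    simp [hb]
  · intro h
    simp [Polynomial.notMem_support_iff.1 h]

theorem IsDer.liftD {T : Type} [CommRing T] {D : T →+ T} (h : IsDer D) : IsDer (liftD D) := by
  intro x y
  ext n
  rw [coeff_liftD, Polynomial.coeff_add, mul_comm y, Polynomial.coeff_mul, Polynomial.coeff_mul,
    Polynomial.coeff_mul, map_sum, ← Finset.sum_add_distrib]
  refine Finset.sum_congr rfl fun c _ => ?_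
  rw [h, coeff_liftD, coeff_liftD]
  ring

theorem liftD_C {T : Type} [CommRing T] (D : T →+ T) (a : T) :
    liftD D (Polynomial.C a) = Polynomial.C (D a) := by
  ext n
  rw [coeff_liftD, Polynomial.coeff_C, Polynomial.coeff_C]
  split_ifs <;> simp

theorem liftD_X {T : Type} [CommRing T] {D : T →+ T} (h : IsDer D) :
    liftD D Polynomial.X = 0 := by
  ext n
  rw [coeff_liftD, Polynomial.coeff_X]
  split_ifs <;> simp [h.map_one]

theorem Van.coeff {T L : Type} [CommRing T] [CommRing L] {ev : T →+* L} {D E : T →+ T} (N : ℕ) :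
    ∀ {n : ℕ} {z : Polynomial T},
      Van (Polynomial.mapRingHom ev) (liftD D) (liftD E) n z → Van ev D E n (z.coeff N)
  | 0, _, _ => trivial
  | _ + 1, z, h => by
    refine ⟨?_, ?_, ?_⟩
    · have := congrArg (fun p => Polynomial.coeff p N) h.1
      simpa using this
    · rw [← coeff_liftD]; exact Van.coeff N h.2.1
    · rw [← coeff_liftD]; exact Van.coeff N h.2.2

/-- The Euler operator on polynomials. -/
noncomputable def eulerD (T : Type) [CommRing T] : Polynomial T →+ Polynomial T :=
  AddMonoidHom.mk' (fun p => Polynomial.X * Polynomial.derivative p) fun p q => by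
    simp [mul_add]

theorem eulerD_apply {T : Type} [CommRing T] (p : Polynomial T) :
    eulerD T p = Polynomial.X * Polynomial.derivative p := rfl

theorem isDer_eulerD (T : Type) [CommRing T] : IsDer (eulerD T) := by
  intro x y
  simp only [eulerD_apply, Polynomial.derivative_mul]
  ring

end Vale.Agent.P279
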